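import Crest.Agent.S0326Lib.Main

/-!
# S0326 library: choice of the parameters and the final covering theorem
-/

set_option autoImplicit false

namespace Crest.Agent.S0326Lib

open MeasureTheory

lemma exists_frame' (A : E2 →L[ℝ] E2) (htr : LinearMap.trace ℝ E2 A.toLinearMap = 0) :
    ∃ (v₁ v₂ : E2) (β γ : ℝ), IsFrame v₁ v₂ ∧ A v₁ = γ • v₂ ∧ A v₂ = β • v₁ ∧
      β * γ = - LinearMap.det A.toLinearMap := by
  obtain ⟨v₁, v₂, β, γ, h1, h2, h3, h4, h5, h6, h7⟩ := exists_frame A htr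
  exact ⟨v₁, v₂, β, γ, ⟨h1, h2, h3, h4⟩, h5, h6, h7⟩

lemma pow4_le (τ : ℝ) (h0 : 0 ≤ τ) (h1 : τ ≤ 1) : ((1 + τ / 4) * (1 + τ / 4)) ^ 2 ≤ 1 + 2 * τ := by
  have h2 : τ ^ 2 ≤ τ := by nlinarith
  have h3 : τ ^ 3 ≤ τ := by nlinarith
  have h4 : τ ^ 4 ≤ τ := by nlinarith
  nlinarith

lemma mu_le (τ C₁ : ℝ) (hτ0 : 0 ≤ τ) (hτ1 : τ ≤ 1) (hC₁ : 0 < C₁) :
    ((1 + 2 * (τ / 8)) * (1 + 4 * (1 + C₁) * (τ / (16 * (1 + C₁))))) ^ 2 ≤ 1 + 2 * τ := by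
  have e1 : 1 + 2 * (τ / 8) = 1 + τ / 4 := by ring
  have e2 : 1 + 4 * (1 + C₁) * (τ / (16 * (1 + C₁))) = 1 + τ / 4 := by
    have : (1 + C₁) ≠ 0 := by positivity
    field_simp
    ring
  rw [e1, e2]
  exact pow4_le τ hτ0 hτ1

lemma final_arith (I vD δv ε e₂ ε₃ τ μ2 : ℝ) (hI0 : 0 ≤ I) (hIv : I ≤ vD) (hε : 0 < ε)
    (hδ0 : 0 ≤ δv) (hδ : δv ≤ ε₃) (he₂0 : 0 < e₂) (he₂1 : e₂ ≤ 1)
    (he₂ε : e₂ ≤ ε / (8 * (vD + 1))) (hε₃ : ε₃ ≤ ε / 8) (hε₃1 : ε₃ ≤ 1) (hτ0 : 0 < τ)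
    (hτε : τ ≤ ε / (24 * (vD + 1))) (hμ : μ2 ≤ 1 + 2 * τ) :
    μ2 * (I + 2 * e₂ * vD + (1 + e₂) * δv) ≤ I + ε := by
  have hvD0 : 0 ≤ vD := hI0.trans hIv
  have hvpos : 0 < vD + 1 := by positivity
  have hB0 : 0 ≤ I + 2 * e₂ * vD + (1 + e₂) * δv := by positivity
  have hτv : τ * (vD + 1) ≤ ε / 24 := by
    have := mul_le_mul_of_nonneg_right hτε hvpos.le
    have e : ε / (24 * (vD + 1)) * (vD + 1) = ε / 24 := by field_simp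
    linarith
  have he₂v : e₂ * (vD + 1) ≤ ε / 8 := by
    have := mul_le_mul_of_nonneg_right he₂ε hvpos.le
    have e : ε / (8 * (vD + 1)) * (vD + 1) = ε / 8 := by field_simp
    linarith
  have hε₃0 : 0 ≤ ε₃ := hδ0.trans hδ
  have hBle : I + 2 * e₂ * vD + (1 + e₂) * δv ≤ I + 2 * e₂ * vD + 2 * ε₃ := by
    nlinarith
  have hB3 : I + 2 * e₂ * vD + (1 + e₂) * δv ≤ 3 * (vD + 1) := by
    have : 2 * e₂ * vD ≤ 2 * vD := by nlinarith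
    linarith
  calc μ2 * (I + 2 * e₂ * vD + (1 + e₂) * δv)
      ≤ (1 + 2 * τ) * (I + 2 * e₂ * vD + (1 + e₂) * δv) := mul_le_mul_of_nonneg_right hμ hB0
    _ = (I + 2 * e₂ * vD + (1 + e₂) * δv) + 2 * τ * (I + 2 * e₂ * vD + (1 + e₂) * δv) := by ring
    _ ≤ (I + 2 * e₂ * vD + 2 * ε₃) + 2 * τ * (3 * (vD + 1)) := by
        have := mul_le_mul_of_nonneg_left hB3 (by positivity : (0 : ℝ) ≤ 2 * τ)
        linarith
    _ ≤ I + ε := by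
        have : e₂ * vD ≤ e₂ * (vD + 1) := by nlinarith
        nlinarith

/-- The covering theorem, indexed by a finset. -/
theorem ruled_cover_finset (D : Set E2) (hD : IsCompact D) (V : E2 → E2) (U : Set E2)
    (hU : IsOpen U) (hDU : D ⊆ U) (hV : ContDiffOn ℝ 1 V U) (L h : ℝ) (hL : 0 < L) (hh : 0 < h)
    (htr : ∀ p ∈ D, LinearMap.trace ℝ E2 (fderiv ℝ V p).toLinearMap = 0)
    (hdet : ∀ p ∈ D, -(L ^ 2)⁻¹ < LinearMap.det (fderiv ℝ V p).toLinearMap ∧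
      LinearMap.det (fderiv ℝ V p).toLinearMap ≤ 0)
    (ε : ℝ) (hε : 0 < ε) :
    ∃ (s : Finset (Σ _ : ℤ × ℤ, ℤ × ℤ)) (c a b g : (Σ _ : ℤ × ℤ, ℤ × ℤ) → E2),
      (∀ i ∈ s, a i ≠ 0 ∧ ‖b i‖ = ‖a i‖ ∧ inner ℝ (a i) (b i) = 0) ∧
      (∀ p ∈ D, ∀ t : ℝ, |t| ≤ L → ∃ i ∈ s, ∃ x ∈ Set.Icc (0:ℝ) 1, ∃ y ∈ Set.Icc (0:ℝ) 1,
          p + t • V p = c i + x • a i + y • b i + t • g i) ∧
      ∑ i ∈ s, ‖a i‖ ^ 2 * Jh h (g i) ≤ (∫ p in D, Jh h (V p)) + ε := by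
  rcases D.eq_empty_or_nonempty with hDe | hne
  · refine ⟨∅, fun _ => 0, fun _ => 0, fun _ => 0, fun _ => 0, by simp, ?_, ?_⟩
    · intro p hp; rw [hDe] at hp; exact absurd hp (Set.notMem_empty p)
    · rw [hDe]; simp [hε.le]
  -- constants
  obtain ⟨MA, hMA, hAn⟩ := exists_fderiv_bound hD hU hDU hV
  obtain ⟨d₀, hd₀, hdd⟩ := exists_det_bound hD hne hU hDU hV L hL (fun p hp => (hdet p hp).1)
  have hframes : ∀ q ∈ D, ∃ (v₁ v₂ : E2) (β γ : ℝ), IsFrame v₁ v₂ ∧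
      fderiv ℝ V q v₁ = γ • v₂ ∧ fderiv ℝ V q v₂ = β • v₁ ∧
      β * γ = - LinearMap.det (fderiv ℝ V q).toLinearMap :=
    fun q hq => exists_frame' (fderiv ℝ V q) (htr q hq)
  choose! v₁ v₂ β γ hfr hA₁ hA₂ hprod using hframes
  have hβγ : ∀ q ∈ D, 0 ≤ β q * γ q := fun q hq => by
    rw [hprod q hq]; linarith [(hdet q hq).2]
  have hdet' : ∀ q ∈ D, d₀ ≤ 1 - L ^ 2 * (β q * γ q) := fun q hq => by
    rw [hprod q hq]; linarith [hdd q hq]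
  have hVc : ContinuousOn (fun p => Jh h (V p)) D := continuousOn_J hDU hV h
  -- the integral and the volume
  have hDfin : volume D ≠ ⊤ := hD.measure_lt_top.ne
  have hJint : IntegrableOn (fun p => Jh h (V p)) D volume := hVc.integrableOn_compact hD
  have hI0 : 0 ≤ ∫ p in D, Jh h (V p) :=
    setIntegral_nonneg hD.measurableSet (fun p _ => (Jh_pos h (V p)).le)
  have hIv : ∫ p in D, Jh h (V p) ≤ volume.real D := by
    have h1 : ∫ _ in D, (1 : ℝ) = volume.real D := by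
      rw [setIntegral_const, smul_eq_mul, mul_one]
    rw [← h1]
    exact setIntegral_mono_on hJint (integrableOn_const hDfin) hD.measurableSet
      (fun p _ => Jh_le_one h (V p))
  have hvD0 : 0 ≤ volume.real D := measureReal_nonneg
  generalize hvD : volume.real D = vD at hIv hvD0
  generalize hI : ∫ p in D, Jh h (V p) = I at hI0 hIv
  -- parameters
  have hvpos : 0 < vD + 1 := by positivity
  obtain ⟨τ, hτpos, hτ1, hτε⟩ : ∃ τ : ℝ, 0 < τ ∧ τ ≤ 1 ∧ τ ≤ ε / (24 * (vD + 1)) :=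
    ⟨min 1 (ε / (24 * (vD + 1))), lt_min one_pos (by positivity), min_le_left _ _,
      min_le_right _ _⟩
  obtain ⟨e₂, he₂pos, he₂1, he₂ε⟩ : ∃ e₂ : ℝ, 0 < e₂ ∧ e₂ ≤ 1 ∧ e₂ ≤ ε / (8 * (vD + 1)) :=
    ⟨min 1 (ε / (8 * (vD + 1))), lt_min one_pos (by positivity), min_le_left _ _,
      min_le_right _ _⟩
  obtain ⟨ε₃, hε₃pos, hε₃1, hε₃ε⟩ : ∃ ε₃ : ℝ, 0 < ε₃ ∧ ε₃ ≤ 1 ∧ ε₃ ≤ ε / 8 :=
    ⟨min 1 (ε / 8), lt_min one_pos (by positivity), min_le_left _ _, min_le_right _ _⟩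
  obtain ⟨C₁, hC₁⟩ : ∃ C₁ : ℝ, C₁ = (1 + L * MA) / d₀ := ⟨_, rfl⟩
  have hC₁pos : 0 < C₁ := by rw [hC₁]; positivity
  obtain ⟨κ, hκ⟩ : ∃ κ : ℝ, κ = τ / 8 := ⟨_, rfl⟩
  have hκpos : 0 < κ := by rw [hκ]; positivity
  obtain ⟨θ, hθ⟩ : ∃ θ : ℝ, θ = τ / (16 * (1 + C₁)) := ⟨_, rfl⟩
  have hθpos : 0 < θ := by rw [hθ]; positivity
  obtain ⟨ε₁, hε₁⟩ : ∃ ε₁ : ℝ, ε₁ = κ * θ / (2 * L) := ⟨_, rfl⟩
  have hε₁pos : 0 < ε₁ := by rw [hε₁]; positivity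
  obtain ⟨r, hr, hunif⟩ := exists_unif_diff hD hU hDU hV ε₁ hε₁pos
  obtain ⟨r₁, hr₁, hthick⟩ := exists_cthickening_bound hD ε₃ hε₃pos
  obtain ⟨K, hK⟩ : ∃ K : ℝ,
      K = (1 + h) * (2 * (MA + ε₁) + 2 * MA * (1 + 2 * (1 + C₁) * θ)) + 1 := ⟨_, rfl⟩
  have hKpos : 0 < K := by rw [hK]; positivity
  obtain ⟨ℓ, hℓpos, hℓr, hℓr₁, hℓK⟩ : ∃ ℓ : ℝ, 0 < ℓ ∧ 2 * ℓ ≤ r ∧ 2 * ℓ ≤ r₁ ∧ K * ℓ ≤ e₂ := by
    refine ⟨min (min (r / 2) (r₁ / 2)) (e₂ / K),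
      lt_min (lt_min (by positivity) (by positivity)) (by positivity), ?_, ?_, ?_⟩
    · have : min (min (r / 2) (r₁ / 2)) (e₂ / K) ≤ r / 2 :=
        (min_le_left _ _).trans (min_le_left _ _)
      linarith
    · have : min (min (r / 2) (r₁ / 2)) (e₂ / K) ≤ r₁ / 2 :=
        (min_le_left _ _).trans (min_le_right _ _)
      linarith
    · have : min (min (r / 2) (r₁ / 2)) (e₂ / K) ≤ e₂ / K := min_le_right _ _
      rw [le_div_iff₀ hKpos] at this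
      linarith
  -- the three hypotheses
  have hP1 : ∀ p ∈ D, ∀ q ∈ D, ‖p - q‖ ≤ 2 * ℓ →
      L * ‖V p - V q - fderiv ℝ V q (p - q)‖ ≤ κ * (θ * ℓ) := by
    intro p hp q hq hpq
    have h1 := hunif p hp q hq (hpq.trans hℓr)
    have h2 : ε₁ * ‖p - q‖ ≤ ε₁ * (2 * ℓ) := mul_le_mul_of_nonneg_left hpq hε₁pos.le
    have h3 : L * (ε₁ * (2 * ℓ)) = κ * (θ * ℓ) := by rw [hε₁]; field_simp
    calc L * ‖V p - V q - fderiv ℝ V q (p - q)‖ ≤ L * (ε₁ * (2 * ℓ)) :=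
          mul_le_mul_of_nonneg_left (h1.trans h2) hL.le
      _ = κ * (θ * ℓ) := h3
  have hP2 : ∀ p ∈ D, ∀ q ∈ D, ‖p - q‖ ≤ 2 * ℓ → Jh h (V q) ≤ Jh h (V p) + e₂ := by
    intro p hp q hq hpq
    have h1 := hunif p hp q hq (hpq.trans hℓr)
    have h2 : ‖V q - V p‖ ≤ (MA + ε₁) * (2 * ℓ) := by
      have e : V q - V p = -(V p - V q - fderiv ℝ V q (p - q)) - fderiv ℝ V q (p - q) := by abel
      rw [e]
      calc ‖-(V p - V q - fderiv ℝ V q (p - q)) - fderiv ℝ V q (p - q)‖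
          ≤ ‖-(V p - V q - fderiv ℝ V q (p - q))‖ + ‖fderiv ℝ V q (p - q)‖ := norm_sub_le _ _
        _ ≤ ε₁ * ‖p - q‖ + MA * ‖p - q‖ := by
            rw [norm_neg]
            exact add_le_add h1 (((fderiv ℝ V q).le_opNorm _).trans
              (mul_le_mul_of_nonneg_right (hAn q hq) (norm_nonneg _)))
        _ = (MA + ε₁) * ‖p - q‖ := by ring
        _ ≤ (MA + ε₁) * (2 * ℓ) := mul_le_mul_of_nonneg_left hpq (by positivity)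
    have h3 := Jh_le_add hh.le (V q) (V p)
    have h4 : (1 + h) * ‖V q - V p‖ ≤ K * ℓ := by
      calc (1 + h) * ‖V q - V p‖ ≤ (1 + h) * ((MA + ε₁) * (2 * ℓ)) :=
            mul_le_mul_of_nonneg_left h2 (by positivity)
        _ ≤ K * ℓ := by
            rw [hK]
            have : 0 ≤ (1 + h) * (2 * MA * (1 + 2 * (1 + C₁) * θ)) * ℓ := by positivity
            nlinarith
    linarith
  have hP3 : (1 + h) * (MA * (2 * (ℓ + 2 * (1 + (1 + L * MA) / d₀) * (θ * ℓ)))) ≤ e₂ := by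
    rw [← hC₁]
    have : (1 + h) * (MA * (2 * (ℓ + 2 * (1 + C₁) * (θ * ℓ)))) ≤ K * ℓ := by
      rw [hK]
      have : 0 ≤ (1 + h) * (2 * (MA + ε₁)) * ℓ := by positivity
      nlinarith
    linarith
  obtain ⟨s, c, a, b, g, hsq, hcov, hcost⟩ := exists_cover_of_params hD V (fderiv ℝ V) v₁ v₂ β γ
    hfr hA₁ hA₂ L h MA d₀ hL hh hMA hd₀ hAn hβγ hdet' hVc κ θ e₂ ℓ hκpos hθpos he₂pos hℓpos
    hP1 hP2 hP3
  refine ⟨s, c, a, b, g, hsq, hcov, hcost.trans ?_⟩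
  -- final arithmetic
  rw [hvD, hI, ← hC₁]
  have hvc := hthick (2 * ℓ) (by positivity) hℓr₁
  have hvc0 : volume.real D ≤ volume.real (Metric.cthickening (2 * ℓ) D) :=
    measureReal_mono (Metric.self_subset_cthickening D)
      (hD.isBounded.cthickening).measure_lt_top.ne
  have hvc' : volume.real (Metric.cthickening (2 * ℓ) D) ≤ volume.real D + ε₃ := hvc
  rw [hvD] at hvc0 hvc'
  have hμ : ((1 + 2 * κ) * (1 + 4 * (1 + C₁) * θ)) ^ 2 ≤ 1 + 2 * τ := by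
    rw [hκ, hθ]
    exact mu_le τ C₁ hτpos.le hτ1 hC₁pos
  exact final_arith I vD _ ε e₂ ε₃ τ _ hI0 hIv hε (by linarith) (by linarith) he₂pos he₂1 he₂ε
    hε₃ε hε₃1 hτpos hτε hμ

end Crest.Agent.S0326Lib
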