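import Crest.Agent.S0326Lib.Frame

/-!
# S0326 library: uniform estimates on the compact set `D`
-/

set_option autoImplicit false

namespace Crest.Agent.S0326Lib

open MeasureTheory Metric

variable {D U : Set E2} {V : E2 → E2}

lemma continuousOn_fderiv (hU : IsOpen U) (hDU : D ⊆ U) (hV : ContDiffOn ℝ 1 V U) :
    ContinuousOn (fderiv ℝ V) D :=
  (hV.continuousOn_fderiv_of_isOpen hU le_rfl).mono hDU

lemma exists_fderiv_bound (hD : IsCompact D) (hU : IsOpen U) (hDU : D ⊆ U)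
    (hV : ContDiffOn ℝ 1 V U) : ∃ M : ℝ, 0 ≤ M ∧ ∀ p ∈ D, ‖fderiv ℝ V p‖ ≤ M := by
  obtain ⟨C, hC⟩ := hD.exists_bound_of_continuousOn (continuousOn_fderiv hU hDU hV)
  exact ⟨max C 0, le_max_right _ _, fun p hp => (hC p hp).trans (le_max_left _ _)⟩

lemma exists_det_bound (hD : IsCompact D) (hne : D.Nonempty) (hU : IsOpen U) (hDU : D ⊆ U)
    (hV : ContDiffOn ℝ 1 V U) (L : ℝ) (hL : 0 < L)
    (hdet : ∀ p ∈ D, -(L ^ 2)⁻¹ < LinearMap.det (fderiv ℝ V p).toLinearMap) :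
    ∃ d₀ : ℝ, 0 < d₀ ∧ ∀ p ∈ D, d₀ ≤ 1 + L ^ 2 * LinearMap.det (fderiv ℝ V p).toLinearMap := by
  have hc : ContinuousOn (fun p => 1 + L ^ 2 * LinearMap.det (fderiv ℝ V p).toLinearMap) D := by
    have h1 : ContinuousOn (fun p => (fderiv ℝ V p).det) D :=
      ContinuousLinearMap.continuous_det.comp_continuousOn (continuousOn_fderiv hU hDU hV)
    exact continuousOn_const.add (continuousOn_const.mul h1)
  obtain ⟨p₀, hp₀, hmin⟩ := hD.exists_isMinOn hne hc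
  refine ⟨1 + L ^ 2 * LinearMap.det (fderiv ℝ V p₀).toLinearMap, ?_, fun p hp => hmin hp⟩
  have h0 := hdet p₀ hp₀
  have hL2 : 0 < L ^ 2 := by positivity
  have : -1 < L ^ 2 * LinearMap.det (fderiv ℝ V p₀).toLinearMap := by
    have h := mul_lt_mul_of_pos_left h0 hL2
    rw [mul_neg, mul_inv_cancel₀ hL2.ne'] at h
    exact h
  linarith

lemma exists_unif_diff (hD : IsCompact D) (hU : IsOpen U) (hDU : D ⊆ U)
    (hV : ContDiffOn ℝ 1 V U) (ε₁ : ℝ) (hε₁ : 0 < ε₁) :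
    ∃ r : ℝ, 0 < r ∧ ∀ p ∈ D, ∀ q ∈ D, ‖p - q‖ ≤ r →
      ‖V p - V q - fderiv ℝ V q (p - q)‖ ≤ ε₁ * ‖p - q‖ := by
  have hloc : ∀ z ∈ D, ∃ ρ > 0, ∀ x ∈ ball z ρ, ∀ y ∈ ball z ρ, y ∈ D →
      ‖V x - V y - fderiv ℝ V y (x - y)‖ ≤ ε₁ * ‖x - y‖ := by
    intro z hz
    have hstrict : HasStrictFDerivAt V (fderiv ℝ V z) z :=
      (hV.contDiffAt (hU.mem_nhds (hDU hz))).hasStrictFDerivAt (by norm_num)
    have h1 := hstrict.isLittleO.def (half_pos hε₁)
    have hcont : ContinuousWithinAt (fderiv ℝ V) D z := continuousOn_fderiv hU hDU hV z hz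
    have h2 : ∀ᶠ y in nhdsWithin z D, dist (fderiv ℝ V y) (fderiv ℝ V z) < ε₁ / 2 :=
      hcont (ball_mem_nhds _ (half_pos hε₁))
    obtain ⟨ρ₁, hρ₁, h1'⟩ := Metric.eventually_nhds_iff.mp h1
    obtain ⟨ρ₂, hρ₂, h2'⟩ := Metric.mem_nhdsWithin_iff.mp h2
    refine ⟨min ρ₁ ρ₂, lt_min hρ₁ hρ₂, ?_⟩
    intro x hx y hy hyD
    have hxy : dist (x, y) (z, z) < ρ₁ := by
      rw [Prod.dist_eq]
      exact max_lt (lt_of_lt_of_le hx (min_le_left _ _)) (lt_of_lt_of_le hy (min_le_left _ _))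
    have e1 := h1' hxy
    have e2 : dist (fderiv ℝ V y) (fderiv ℝ V z) < ε₁ / 2 :=
      h2' ⟨ball_subset_ball (min_le_right _ _) hy, hyD⟩
    have e3 : V x - V y - fderiv ℝ V y (x - y)
        = (V x - V y - fderiv ℝ V z (x - y)) - (fderiv ℝ V y - fderiv ℝ V z) (x - y) := by
      simp
    rw [e3]
    calc ‖(V x - V y - fderiv ℝ V z (x - y)) - (fderiv ℝ V y - fderiv ℝ V z) (x - y)‖
        ≤ ‖V x - V y - fderiv ℝ V z (x - y)‖ + ‖(fderiv ℝ V y - fderiv ℝ V z) (x - y)‖ :=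
          norm_sub_le _ _
      _ ≤ ε₁ / 2 * ‖x - y‖ + ε₁ / 2 * ‖x - y‖ := by
          apply add_le_add e1
          refine (ContinuousLinearMap.le_opNorm _ _).trans
            (mul_le_mul_of_nonneg_right ?_ (norm_nonneg _))
          rw [← dist_eq_norm]; exact e2.le
      _ = ε₁ * ‖x - y‖ := by ring
  choose! ρ hρpos hρ using hloc
  obtain ⟨δ, hδ, hleb⟩ := lebesgue_number_lemma_of_metric (c := fun z : D => ball (z : E2) (ρ z))
    hD (fun z => isOpen_ball)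
    (fun x hx => Set.mem_iUnion.mpr ⟨⟨x, hx⟩, mem_ball_self (hρpos x hx)⟩)
  refine ⟨δ / 2, half_pos hδ, fun p hp q hq hpq => ?_⟩
  obtain ⟨z, hz⟩ := hleb q hq
  have hpb : p ∈ ball q δ := by rw [mem_ball, dist_eq_norm]; linarith
  exact hρ z z.2 p (hz hpb) q (hz (mem_ball_self hδ)) hq

lemma exists_cthickening_bound (hD : IsCompact D) (ε₃ : ℝ) (hε₃ : 0 < ε₃) :
    ∃ r₁ : ℝ, 0 < r₁ ∧ ∀ r, 0 ≤ r → r ≤ r₁ →
      (volume (cthickening r D)).toReal ≤ (volume D).toReal + ε₃ := by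
  have h := tendsto_measure_cthickening_of_isCompact (μ := (volume : Measure E2)) hD
  have hfin : volume D ≠ ⊤ := hD.measure_lt_top.ne
  have hlt : volume D < volume D + ENNReal.ofReal ε₃ :=
    ENNReal.lt_add_right hfin (by simpa using hε₃)
  have hev := (tendsto_order.1 h).2 _ hlt
  obtain ⟨r₁, hr₁, hr⟩ := Metric.eventually_nhds_iff.mp hev
  refine ⟨r₁ / 2, half_pos hr₁, fun r hr0 hrle => ?_⟩
  have h1 : volume (cthickening r D) < volume D + ENNReal.ofReal ε₃ :=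
    hr (by rw [Real.dist_eq, sub_zero, abs_of_nonneg hr0]; linarith)
  have h2 := ENNReal.toReal_mono (by simp [hfin]) h1.le
  rwa [ENNReal.toReal_add hfin ENNReal.ofReal_ne_top, ENNReal.toReal_ofReal hε₃.le] at h2

/-- The cost weight. -/
noncomputable def Jh (h : ℝ) (g : E2) : ℝ := 1 / Real.sqrt (1 + (g 0) ^ 2 + h ^ 2 * (g 1) ^ 2)

lemma Jh_pos (h : ℝ) (g : E2) : 0 < Jh h g := by
  unfold Jh; positivity

lemma Jh_le_one (h : ℝ) (g : E2) : Jh h g ≤ 1 := by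
  unfold Jh
  rw [div_le_one (by positivity)]
  rw [Real.le_sqrt' (by norm_num)]
  nlinarith [sq_nonneg (g 0), sq_nonneg (h * g 1)]

lemma abs_coord_le (x : E2) (i : Fin 2) : |x i| ≤ ‖x‖ := by
  have h := norm_sq_eq_coords x
  apply abs_le_of_sq_le_sq' _ (norm_nonneg _) |> abs_le.mpr
  fin_cases i
  · simp; nlinarith [sq_nonneg (x 1)]
  · simp; nlinarith [sq_nonneg (x 0)]

lemma Jh_le_add {h : ℝ} (hh : 0 ≤ h) (g g' : E2) : Jh h g ≤ Jh h g' + (1 + h) * ‖g - g'‖ := by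
  unfold Jh
  set N := Real.sqrt (1 + (g 0) ^ 2 + h ^ 2 * (g 1) ^ 2) with hN
  set N' := Real.sqrt (1 + (g' 0) ^ 2 + h ^ 2 * (g' 1) ^ 2) with hN'
  have hNsq : N ^ 2 = 1 + (g 0) ^ 2 + h ^ 2 * (g 1) ^ 2 := Real.sq_sqrt (by positivity)
  have hN'sq : N' ^ 2 = 1 + (g' 0) ^ 2 + h ^ 2 * (g' 1) ^ 2 := Real.sq_sqrt (by positivity)
  have hN1 : 1 ≤ N := by
    rw [hN, Real.le_sqrt' (by norm_num)]; nlinarith [sq_nonneg (g 0), sq_nonneg (h * g 1)]
  have hN'1 : 1 ≤ N' := by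
    rw [hN', Real.le_sqrt' (by norm_num)]; nlinarith [sq_nonneg (g' 0), sq_nonneg (h * g' 1)]
  have hx : |g 0| ≤ N := Real.abs_le_sqrt (by nlinarith [sq_nonneg (h * g 1)])
  have hx' : |g' 0| ≤ N' := Real.abs_le_sqrt (by nlinarith [sq_nonneg (h * g' 1)])
  have hy : |h * g 1| ≤ N := Real.abs_le_sqrt (by nlinarith [sq_nonneg (g 0)])
  have hy' : |h * g' 1| ≤ N' := Real.abs_le_sqrt (by nlinarith [sq_nonneg (g' 0)])
  set δ := |g 0 - g' 0| + h * |g 1 - g' 1| with hδ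
  have hδ0 : 0 ≤ δ := by positivity
  -- N' - N ≤ δ
  have hdiff : N' - N ≤ δ := by
    have hsum : 0 < N' + N := by linarith
    have h1 : (N' - N) * (N' + N) = (g' 0 - g 0) * (g' 0 + g 0)
        + (h * g' 1 - h * g 1) * (h * g' 1 + h * g 1) := by
      have : (N' - N) * (N' + N) = N' ^ 2 - N ^ 2 := by ring
      rw [this, hNsq, hN'sq]; ring
    have h2 : (g' 0 - g 0) * (g' 0 + g 0) ≤ |g 0 - g' 0| * (N' + N) := by
      calc (g' 0 - g 0) * (g' 0 + g 0) ≤ |(g' 0 - g 0) * (g' 0 + g 0)| := le_abs_self _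
        _ = |g 0 - g' 0| * |g' 0 + g 0| := by rw [abs_mul, abs_sub_comm]
        _ ≤ |g 0 - g' 0| * (N' + N) := by
            apply mul_le_mul_of_nonneg_left _ (abs_nonneg _)
            exact (abs_add_le _ _).trans (add_le_add hx' hx)
    have h3 : (h * g' 1 - h * g 1) * (h * g' 1 + h * g 1) ≤ h * |g 1 - g' 1| * (N' + N) := by
      calc (h * g' 1 - h * g 1) * (h * g' 1 + h * g 1)
          ≤ |(h * g' 1 - h * g 1) * (h * g' 1 + h * g 1)| := le_abs_self _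
        _ = h * |g 1 - g' 1| * |h * g' 1 + h * g 1| := by
            rw [abs_mul, ← mul_sub, abs_mul, abs_of_nonneg hh, abs_sub_comm]
        _ ≤ h * |g 1 - g' 1| * (N' + N) := by
            apply mul_le_mul_of_nonneg_left _ (by positivity)
            exact (abs_add_le _ _).trans (add_le_add hy' hy)
    have h4 : (N' - N) * (N' + N) ≤ δ * (N' + N) := by
      rw [h1, hδ]; nlinarith
    exact le_of_mul_le_mul_right h4 hsum
  have hδle : δ ≤ (1 + h) * ‖g - g'‖ := by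
    have e0 : |g 0 - g' 0| ≤ ‖g - g'‖ := by simpa using abs_coord_le (g - g') 0
    have e1 : |g 1 - g' 1| ≤ ‖g - g'‖ := by simpa using abs_coord_le (g - g') 1
    rw [hδ]; nlinarith
  have hNN' : 0 < N * N' := by positivity
  have key : 1 / N ≤ 1 / N' + δ := by
    rw [div_add' _ _ _ (by positivity : N' ≠ 0), div_le_div_iff₀ (by positivity) (by positivity)]
    have h5 : 1 ≤ N * N' := by nlinarith
    nlinarith [mul_nonneg hδ0 (sub_nonneg.mpr h5)]
  linarith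

lemma continuousOn_J (hDU : D ⊆ U) (hV : ContDiffOn ℝ 1 V U) (h : ℝ) :
    ContinuousOn (fun p => 1 / Real.sqrt (1 + (V p 0) ^ 2 + h ^ 2 * (V p 1) ^ 2)) D := by
  have hc : ContinuousOn V D := hV.continuousOn.mono hDU
  have h0 : ContinuousOn (fun p => V p 0) D :=
    (EuclideanSpace.proj (0 : Fin 2) : E2 →L[ℝ] ℝ).continuous.comp_continuousOn hc
  have h1 : ContinuousOn (fun p => V p 1) D :=
    (EuclideanSpace.proj (1 : Fin 2) : E2 →L[ℝ] ℝ).continuous.comp_continuousOn hc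
  apply ContinuousOn.div continuousOn_const
  · apply Real.continuous_sqrt.comp_continuousOn
    exact (continuousOn_const.add (h0.pow 2)).add (continuousOn_const.mul (h1.pow 2))
  · intro p _
    positivity

end Crest.Agent.S0326Lib
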