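import Crest.Agent.S0326Lib.Squares

/-!
# S0326 library: the grid of cells and the comparison of the cell sum with the integral
-/

set_option autoImplicit false

namespace Crest.Agent.S0326Lib

open MeasureTheory

/-- Cell index of a point. -/
noncomputable def cellOf (ℓ : ℝ) (x : E2) : ℤ × ℤ := (⌊x 0 / ℓ⌋, ⌊x 1 / ℓ⌋)

/-- The half-open cell with index `k`. -/
def cell (ℓ : ℝ) (k : ℤ × ℤ) : Set E2 :=
  stdBox ![ℓ * k.1, ℓ * k.2] ![ℓ * (k.1 + 1), ℓ * (k.2 + 1)]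

/-- The enlarged cell. -/
def cellPlus (ℓ ρ : ℝ) (k : ℤ × ℤ) : Set E2 :=
  stdBox ![ℓ * k.1 - ρ, ℓ * k.2 - ρ] ![ℓ * (k.1 + 1) + ρ, ℓ * (k.2 + 1) + ρ]

lemma mem_cell {ℓ : ℝ} {k : ℤ × ℤ} {x : E2} :
    x ∈ cell ℓ k ↔ (ℓ * k.1 ≤ x 0 ∧ x 0 < ℓ * (k.1 + 1)) ∧ (ℓ * k.2 ≤ x 1 ∧ x 1 < ℓ * (k.2 + 1)) := by
  simp [cell, stdBox, Fin.forall_fin_two]

lemma mem_cellPlus {ℓ ρ : ℝ} {k : ℤ × ℤ} {x : E2} :
    x ∈ cellPlus ℓ ρ k ↔ (ℓ * k.1 - ρ ≤ x 0 ∧ x 0 < ℓ * (k.1 + 1) + ρ) ∧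
      (ℓ * k.2 - ρ ≤ x 1 ∧ x 1 < ℓ * (k.2 + 1) + ρ) := by
  simp [cellPlus, stdBox, Fin.forall_fin_two]

lemma mem_cell_iff {ℓ : ℝ} (hℓ : 0 < ℓ) {k : ℤ × ℤ} {x : E2} :
    x ∈ cell ℓ k ↔ cellOf ℓ x = k := by
  rw [mem_cell, cellOf, Prod.ext_iff]
  simp only [Int.floor_eq_iff, le_div_iff₀ hℓ, div_lt_iff₀ hℓ]
  constructor
  · rintro ⟨⟨h1, h2⟩, h3, h4⟩
    refine ⟨⟨by linarith, by linarith⟩, by linarith, by linarith⟩
  · rintro ⟨⟨h1, h2⟩, h3, h4⟩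
    refine ⟨⟨by linarith, by linarith⟩, by linarith, by linarith⟩

lemma mem_cell_cellOf {ℓ : ℝ} (hℓ : 0 < ℓ) (x : E2) : x ∈ cell ℓ (cellOf ℓ x) :=
  (mem_cell_iff hℓ).mpr rfl

lemma cell_disjoint {ℓ : ℝ} (hℓ : 0 < ℓ) {k k' : ℤ × ℤ} (h : k ≠ k') :
    Disjoint (cell ℓ k) (cell ℓ k') := by
  rw [Set.disjoint_left]
  intro x hx hx'
  exact h (((mem_cell_iff hℓ).mp hx).symm.trans ((mem_cell_iff hℓ).mp hx'))

lemma measurableSet_cell (ℓ : ℝ) (k : ℤ × ℤ) : MeasurableSet (cell ℓ k) :=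
  measurableSet_stdBox _ _

lemma volume_cell {ℓ : ℝ} (hℓ : 0 < ℓ) (k : ℤ × ℤ) : volume (cell ℓ k) = ENNReal.ofReal (ℓ ^ 2) := by
  rw [cell, volume_stdBox, ← ENNReal.ofReal_mul (by simp; nlinarith)]
  congr 1
  simp
  ring

lemma volume_cellPlus {ℓ ρ : ℝ} (h : 0 ≤ ℓ + 2 * ρ) (k : ℤ × ℤ) :
    volume (cellPlus ℓ ρ k) = ENNReal.ofReal ((ℓ + 2 * ρ) ^ 2) := by
  rw [cellPlus, volume_stdBox, ← ENNReal.ofReal_mul (by simp; nlinarith)]
  congr 1
  simp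
  ring

lemma norm_le_abs_add_abs (x : E2) : ‖x‖ ≤ |x 0| + |x 1| := by
  have h := norm_sq_eq_coords x
  have h3 : ‖x‖ ^ 2 ≤ (|x 0| + |x 1|) ^ 2 := by
    rw [h]
    nlinarith [sq_abs (x 0), sq_abs (x 1), abs_nonneg (x 0), abs_nonneg (x 1)]
  exact abs_le_of_sq_le_sq' h3 (by positivity) |>.2

lemma abs_coord_le' (x : E2) (i : Fin 2) : |x i| ≤ ‖x‖ := by
  have h := norm_sq_eq_coords x
  apply abs_le_of_sq_le_sq' _ (norm_nonneg _) |> abs_le.mpr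
  fin_cases i
  · simp; nlinarith [sq_nonneg (x 1)]
  · simp; nlinarith [sq_nonneg (x 0)]

lemma norm_sub_le_of_mem_cell {ℓ : ℝ} {k : ℤ × ℤ} {x y : E2} (hx : x ∈ cell ℓ k)
    (hy : y ∈ cell ℓ k) : ‖x - y‖ ≤ 2 * ℓ := by
  rw [mem_cell] at hx hy
  have h := norm_le_abs_add_abs (x - y)
  have h0 : |(x - y) 0| ≤ ℓ := by
    simp only [PiLp.sub_apply]; rw [abs_le]; constructor <;> linarith [hx.1.1, hx.1.2, hy.1.1, hy.1.2]
  have h1 : |(x - y) 1| ≤ ℓ := by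
    simp only [PiLp.sub_apply]; rw [abs_le]; constructor <;> linarith [hx.2.1, hx.2.2, hy.2.1, hy.2.2]
  linarith

lemma mem_cellPlus_of_norm_le {ℓ ρ : ℝ} {k : ℤ × ℤ} {x p : E2} (hp : p ∈ cell ℓ k)
    (hx : ‖x - p‖ ≤ ρ) : x ∈ cellPlus ℓ ρ k := by
  rw [mem_cell] at hp
  rw [mem_cellPlus]
  have h0 := (abs_le.mp ((abs_coord_le' (x - p) 0).trans hx))
  have h1 := (abs_le.mp ((abs_coord_le' (x - p) 1).trans hx))
  simp only [PiLp.sub_apply] at h0 h1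
  refine ⟨⟨by linarith [hp.1.1], by linarith [hp.1.2]⟩, by linarith [hp.2.1], by linarith [hp.2.2]⟩

lemma norm_sub_le_of_mem_cellPlus {ℓ ρ : ℝ} {k : ℤ × ℤ} {x q : E2} (hx : x ∈ cellPlus ℓ ρ k)
    (hq : q ∈ cell ℓ k) : ‖x - q‖ ≤ 2 * (ℓ + ρ) := by
  rw [mem_cell] at hq
  rw [mem_cellPlus] at hx
  have h := norm_le_abs_add_abs (x - q)
  have h0 : |(x - q) 0| ≤ ℓ + ρ := by
    simp only [PiLp.sub_apply]; rw [abs_le]; constructor <;> linarith [hx.1.1, hx.1.2, hq.1.1, hq.1.2]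
  have h1 : |(x - q) 1| ≤ ℓ + ρ := by
    simp only [PiLp.sub_apply]; rw [abs_le]; constructor <;> linarith [hx.2.1, hx.2.2, hq.2.1, hq.2.2]
  linarith

/-- Comparison of a cell sum with the integral over `D`. -/
theorem cells_sum_le {D : Set E2} (hD : IsCompact D) {ℓ : ℝ} (hℓ : 0 < ℓ) (𝒦 : Finset (ℤ × ℤ))
    (h𝒦 : ∀ x ∈ D, cellOf ℓ x ∈ 𝒦) (h𝒦' : ∀ k ∈ 𝒦, ∃ x ∈ D, cellOf ℓ x = k)
    (F : E2 → ℝ) (hF : ContinuousOn F D) (c : ℤ × ℤ → ℝ) (e C : ℝ) (hC : 0 ≤ C)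
    (hc1 : ∀ k ∈ 𝒦, c k ≤ C)
    (hcF : ∀ k ∈ 𝒦, ∀ x ∈ D, cellOf ℓ x = k → c k ≤ F x + e) :
    ∑ k ∈ 𝒦, ℓ ^ 2 * c k ≤ (∫ x in D, F x) + e * volume.real D
      + C * (volume.real (Metric.cthickening (2 * ℓ) D) - volume.real D) := by
  have hDm : MeasurableSet D := hD.measurableSet
  have hDfin : volume D ≠ ⊤ := hD.measure_lt_top.ne
  have hFint : IntegrableOn F D volume := hF.integrableOn_compact hD
  have hcint : IntegrableOn (fun _ : E2 => e) D volume := integrableOn_const hDfin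
  have hFe : IntegrableOn (fun x => F x + e) D volume := hFint.add hcint
  have hcellfin : ∀ k, volume (cell ℓ k) ≠ ⊤ := fun k => by rw [volume_cell hℓ]; exact ENNReal.ofReal_ne_top
  -- per-cell estimate
  have hper : ∀ k ∈ 𝒦, ℓ ^ 2 * c k ≤ (∫ x in cell ℓ k ∩ D, (F x + e)) + C * volume.real (cell ℓ k \ D) := by
    intro k hk
    have hsplit : volume.real (cell ℓ k ∩ D) + volume.real (cell ℓ k \ D) = ℓ ^ 2 := by
      rw [measureReal_inter_add_sdiff hDm (hcellfin k), measureReal_def, volume_cell hℓ,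
        ENNReal.toReal_ofReal (by positivity)]
    have hm : MeasurableSet (cell ℓ k ∩ D) := (measurableSet_cell ℓ k).inter hDm
    have hfin : volume (cell ℓ k ∩ D) ≠ ⊤ := measure_ne_top_of_subset Set.inter_subset_right hDfin
    have h1 : volume.real (cell ℓ k ∩ D) * c k ≤ ∫ x in cell ℓ k ∩ D, (F x + e) := by
      have e1 : ∫ _ in cell ℓ k ∩ D, c k = volume.real (cell ℓ k ∩ D) * c k := by
        rw [setIntegral_const, smul_eq_mul]
      rw [← e1]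
      apply setIntegral_mono_on (integrableOn_const hfin) (hFe.mono_set Set.inter_subset_right) hm
      intro x hx
      exact hcF k hk x hx.2 ((mem_cell_iff hℓ).mp hx.1)
    have h2 : volume.real (cell ℓ k \ D) * c k ≤ C * volume.real (cell ℓ k \ D) := by
      rw [mul_comm]
      exact mul_le_mul_of_nonneg_right (hc1 k hk) measureReal_nonneg
    calc ℓ ^ 2 * c k = volume.real (cell ℓ k ∩ D) * c k + volume.real (cell ℓ k \ D) * c k := by
          rw [← hsplit]; ring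
      _ ≤ _ := add_le_add h1 h2
  -- sum of the integrals
  have hsum1 : ∑ k ∈ 𝒦, ∫ x in cell ℓ k ∩ D, (F x + e) = (∫ x in D, F x) + e * volume.real D := by
    rw [← integral_biUnion_finset 𝒦 (fun k _ => (measurableSet_cell ℓ k).inter hDm)
      (fun k _ k' _ hkk' => (cell_disjoint hℓ hkk').mono Set.inter_subset_left Set.inter_subset_left)
      (fun k _ => hFe.mono_set Set.inter_subset_right)]
    have hU : (⋃ k ∈ 𝒦, cell ℓ k ∩ D) = D := by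
      ext x
      simp only [Set.mem_iUnion, Set.mem_inter_iff, exists_and_right, exists_prop]
      constructor
      · rintro ⟨-, hx⟩; exact hx
      · intro hx; exact ⟨⟨cellOf ℓ x, h𝒦 x hx, mem_cell_cellOf hℓ x⟩, hx⟩
    rw [hU, integral_add hFint hcint, setIntegral_const, smul_eq_mul, mul_comm]
  -- sum of the outer parts
  have hsum2 : ∑ k ∈ 𝒦, volume.real (cell ℓ k \ D)
      ≤ volume.real (Metric.cthickening (2 * ℓ) D) - volume.real D := by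
    have hcfin : volume (Metric.cthickening (2 * ℓ) D) ≠ ⊤ :=
      (hD.isBounded.cthickening).measure_lt_top.ne
    rw [← measureReal_biUnion_finset
      (fun k _ k' _ hkk' => (cell_disjoint hℓ hkk').mono Set.sdiff_subset Set.sdiff_subset)
      (fun k _ => (measurableSet_cell ℓ k).diff hDm)
      (fun k _ => measure_ne_top_of_subset Set.sdiff_subset (hcellfin k))]
    rw [← measureReal_sdiff (Metric.self_subset_cthickening D) hDm hcfin]
    apply measureReal_mono _ (measure_ne_top_of_subset Set.sdiff_subset hcfin)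
    intro x hx
    simp only [Set.mem_iUnion, Set.mem_sdiff, exists_prop] at hx
    obtain ⟨k, hk, hxk, hxD⟩ := hx
    refine ⟨?_, hxD⟩
    obtain ⟨y, hyD, hyk⟩ := h𝒦' k hk
    apply Metric.mem_cthickening_of_dist_le x y _ _ hyD
    rw [dist_eq_norm]
    exact norm_sub_le_of_mem_cell hxk ((mem_cell_iff hℓ).mpr hyk)
  calc ∑ k ∈ 𝒦, ℓ ^ 2 * c k
      ≤ ∑ k ∈ 𝒦, ((∫ x in cell ℓ k ∩ D, (F x + e)) + C * volume.real (cell ℓ k \ D)) :=
        Finset.sum_le_sum hper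
    _ = (∫ x in D, F x) + e * volume.real D + C * ∑ k ∈ 𝒦, volume.real (cell ℓ k \ D) := by
        rw [Finset.sum_add_distrib, hsum1, Finset.mul_sum]
    _ ≤ _ := by
        have := mul_le_mul_of_nonneg_left hsum2 hC
        linarith

end Crest.Agent.S0326Lib
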