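import Mathlib

/-!
# S0326 library: the zero-diagonal orthonormal frame of a trace-free endomorphism of the plane
-/

set_option autoImplicit false

namespace Crest.Agent.S0326Lib

/-- The Euclidean plane. -/
abbrev E2 : Type := EuclideanSpace ℝ (Fin 2)

lemma apply_eq_entries (A : E2 →L[ℝ] E2) (x : E2) :
    A x = !₂[(A (EuclideanSpace.single 0 1)) 0 * x 0 + (A (EuclideanSpace.single 1 1)) 0 * x 1,
             (A (EuclideanSpace.single 0 1)) 1 * x 0 + (A (EuclideanSpace.single 1 1)) 1 * x 1] := by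
  have hx : x = x 0 • EuclideanSpace.single (0 : Fin 2) (1 : ℝ)
      + x 1 • EuclideanSpace.single (1 : Fin 2) (1 : ℝ) := by
    ext i; fin_cases i <;> simp
  conv_lhs => rw [hx]
  rw [map_add, map_smul, map_smul]
  ext i; fin_cases i <;> simp <;> ring

lemma trace_eq_entries (A : E2 →L[ℝ] E2) :
    LinearMap.trace ℝ E2 A.toLinearMap
      = (A (EuclideanSpace.single 0 1)) 0 + (A (EuclideanSpace.single 1 1)) 1 := by
  rw [LinearMap.trace_eq_matrix_trace ℝ (EuclideanSpace.basisFun (Fin 2) ℝ).toBasis,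
    Matrix.trace_fin_two]
  simp [LinearMap.toMatrix_apply]

lemma det_eq_entries (A : E2 →L[ℝ] E2) :
    LinearMap.det A.toLinearMap
      = (A (EuclideanSpace.single 0 1)) 0 * (A (EuclideanSpace.single 1 1)) 1
        - (A (EuclideanSpace.single 1 1)) 0 * (A (EuclideanSpace.single 0 1)) 1 := by
  rw [← LinearMap.det_toMatrix (EuclideanSpace.basisFun (Fin 2) ℝ).toBasis, Matrix.det_fin_two]
  simp [LinearMap.toMatrix_apply]

lemma inner_eq_coords (x y : E2) : inner ℝ x y = x 0 * y 0 + x 1 * y 1 := by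
  simp [PiLp.inner_apply, Fin.sum_univ_two, mul_comm]

lemma norm_sq_eq_coords (x : E2) : ‖x‖ ^ 2 = x 0 ^ 2 + x 1 ^ 2 := by
  rw [EuclideanSpace.norm_eq, Real.sq_sqrt (by positivity)]
  simp [Fin.sum_univ_two]

theorem exists_frame_aux (A : E2 →L[ℝ] E2) (a b c : ℝ)
    (hA : ∀ x : E2, A x = !₂[a * x 0 + b * x 1, c * x 0 + (-a) * x 1]) :
    ∃ (v₁ v₂ : E2) (β γ : ℝ), ‖v₁‖ = 1 ∧ ‖v₂‖ = 1 ∧ inner ℝ v₁ v₂ = 0 ∧
      (∀ x : E2, x = inner ℝ x v₁ • v₁ + inner ℝ x v₂ • v₂) ∧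
      A v₁ = γ • v₂ ∧ A v₂ = β • v₁ ∧ β * γ = a ^ 2 + b * c := by
  -- the quadratic form on the unit circle
  let f : ℝ → ℝ := fun θ =>
    a * (Real.cos θ ^ 2 - Real.sin θ ^ 2) + (b + c) * (Real.sin θ * Real.cos θ)
  have hf : Continuous f := by fun_prop
  have h0 : f 0 = a := by simp [f]
  have h1 : f (Real.pi / 2) = -a := by simp [f]
  obtain ⟨θ, -, hθ⟩ : ∃ θ ∈ Set.uIcc 0 (Real.pi / 2), f θ = 0 := by
    have := intermediate_value_uIcc (a := (0 : ℝ)) (b := Real.pi / 2) hf.continuousOn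
    apply this
    rw [h0, h1, Set.mem_uIcc]
    rcases le_total a 0 with h | h
    · left; constructor <;> linarith
    · right; constructor <;> linarith
  have hCS : Real.cos θ ^ 2 + Real.sin θ ^ 2 = 1 := Real.cos_sq_add_sin_sq θ
  have hF : a * (Real.cos θ ^ 2 - Real.sin θ ^ 2) + (b + c) * (Real.sin θ * Real.cos θ) = 0 := hθ
  generalize Real.cos θ = C at hCS hF
  generalize Real.sin θ = S at hCS hF
  refine ⟨!₂[C, S], !₂[-S, C], C * (-S * a + C * b) + S * (-S * c + C * (-a)),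
    -S * (C * a + S * b) + C * (C * c + S * (-a)), ?_, ?_, ?_, ?_, ?_, ?_, ?_⟩
  · have : ‖(!₂[C, S] : E2)‖ ^ 2 = 1 := by rw [norm_sq_eq_coords]; simpa using hCS
    nlinarith [norm_nonneg (!₂[C, S] : E2)]
  · have : ‖(!₂[-S, C] : E2)‖ ^ 2 = 1 := by
      rw [norm_sq_eq_coords]; simp; linarith
    nlinarith [norm_nonneg (!₂[-S, C] : E2)]
  · rw [inner_eq_coords]; simp; ring
  · intro x
    ext i
    fin_cases i
    · simp [inner_eq_coords]
      linear_combination (-(x 0)) * hCS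
    · simp [inner_eq_coords]
      linear_combination (-(x 1)) * hCS
  · rw [hA]
    ext i
    fin_cases i
    · simp
      linear_combination (-(a * C + b * S)) * hCS + C * hF
    · simp
      linear_combination (-(c * C - a * S)) * hCS + S * hF
  · rw [hA]
    ext i
    fin_cases i
    · simp
      linear_combination (-(-a * S + b * C)) * hCS + S * hF
    · simp
      linear_combination (-(-c * S - a * C)) * hCS - C * hF
  · linear_combination (a ^ 2 + b * c) * (C ^ 2 + S ^ 2 + 1) * hCS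
      - (a * (C ^ 2 - S ^ 2) + (b + c) * (S * C)) * hF

/-- A trace-free endomorphism of the Euclidean plane has zero diagonal in a suitable
orthonormal frame. -/
theorem exists_frame (A : E2 →L[ℝ] E2) (htr : LinearMap.trace ℝ E2 A.toLinearMap = 0) :
    ∃ (v₁ v₂ : E2) (β γ : ℝ), ‖v₁‖ = 1 ∧ ‖v₂‖ = 1 ∧ inner ℝ v₁ v₂ = 0 ∧
      (∀ x : E2, x = inner ℝ x v₁ • v₁ + inner ℝ x v₂ • v₂) ∧
      A v₁ = γ • v₂ ∧ A v₂ = β • v₁ ∧ β * γ = - LinearMap.det A.toLinearMap := by
  rw [trace_eq_entries] at htr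
  rw [det_eq_entries]
  have hA := apply_eq_entries A
  have hd : (A (EuclideanSpace.single 1 1)) 1 = -(A (EuclideanSpace.single 0 1)) 0 := by linarith
  rw [hd] at hA ⊢
  obtain ⟨v₁, v₂, β, γ, h1, h2, h3, h4, h5, h6, h7⟩ := exists_frame_aux A _ _ _ hA
  exact ⟨v₁, v₂, β, γ, h1, h2, h3, h4, h5, h6, by rw [h7]; ring⟩

end Crest.Agent.S0326Lib
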