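import Mathlib

/-!
# S0326 library: the lattice covering lemma

For `β γ : ℝ` with `0 ≤ β * γ < 1`, the unit squares translated by the sheared lattice
`{(m + β n, n + γ m)}` cover the plane.
-/

set_option autoImplicit false

namespace Crest.Agent.S0326Lib

/-- The sheared lattice `(m + β n, n + γ m)`, `m n : ℤ`, with `0 ≤ β γ < 1`, has the covering
property with respect to the unit square. -/
theorem lattice_cover (β γ X Y : ℝ) (h0 : 0 ≤ β * γ) (h1 : β * γ < 1) :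
    ∃ m n : ℤ, 0 ≤ X - (m + β * n) ∧ X - (m + β * n) ≤ 1 ∧
      0 ≤ Y - (n + γ * m) ∧ Y - (n + γ * m) ≤ 1 := by
  have hd : 0 < 1 - β * γ := by linarith
  -- the height function
  set hgt : ℤ → ℝ := fun n => (n : ℝ) + γ * (⌊X - β * n⌋ : ℝ) with hhgt
  -- two-sided estimate of the height function
  have hfl : ∀ n : ℤ, |γ * (⌊X - β * n⌋ : ℝ) - γ * (X - β * n)| ≤ |γ| := by
    intro n
    rw [← mul_sub, abs_mul]
    have h1 := Int.floor_le (X - β * n)
    have h2 := Int.lt_floor_add_one (X - β * n)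
    have : |(⌊X - β * n⌋ : ℝ) - (X - β * n)| ≤ 1 := by
      rw [abs_le]; constructor <;> linarith
    calc |γ| * |(⌊X - β * n⌋ : ℝ) - (X - β * n)| ≤ |γ| * 1 :=
          mul_le_mul_of_nonneg_left this (abs_nonneg _)
      _ = |γ| := mul_one _
  have hub : ∀ n : ℤ, hgt n ≤ (n : ℝ) * (1 - β * γ) + γ * X + |γ| := by
    intro n
    have := (abs_le.mp (hfl n)).2
    simp only [hhgt]; nlinarith
  have hlb : ∀ n : ℤ, (n : ℝ) * (1 - β * γ) + γ * X - |γ| ≤ hgt n := by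
    intro n
    have := (abs_le.mp (hfl n)).1
    simp only [hhgt]; nlinarith
  -- the step estimate
  have hstep : ∀ n : ℤ, hgt (n + 1) ≤ hgt n + 1 := by
    intro n
    simp only [hhgt]
    have key : γ * ((⌊X - β * ((n + 1 : ℤ) : ℝ)⌋ : ℝ) - (⌊X - β * (n : ℝ)⌋ : ℝ)) ≤ 0 := by
      rcases mul_nonneg_iff.mp h0 with ⟨hb, hg⟩ | ⟨hb, hg⟩
      · have : ⌊X - β * ((n + 1 : ℤ) : ℝ)⌋ ≤ ⌊X - β * (n : ℝ)⌋ := by
          apply Int.floor_le_floor; push_cast; nlinarith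
        have : (⌊X - β * ((n + 1 : ℤ) : ℝ)⌋ : ℝ) ≤ (⌊X - β * (n : ℝ)⌋ : ℝ) := by exact_mod_cast this
        nlinarith
      · have : ⌊X - β * (n : ℝ)⌋ ≤ ⌊X - β * ((n + 1 : ℤ) : ℝ)⌋ := by
          apply Int.floor_le_floor; push_cast; nlinarith
        have : (⌊X - β * (n : ℝ)⌋ : ℝ) ≤ (⌊X - β * ((n + 1 : ℤ) : ℝ)⌋ : ℝ) := by exact_mod_cast this
        nlinarith
    push_cast at key ⊢
    nlinarith
  -- existence of a greatest `n` with `hgt n ≤ Y`
  have hex : ∃ n : ℤ, hgt n ≤ Y := by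
    refine ⟨⌊(Y - γ * X - |γ|) / (1 - β * γ)⌋, ?_⟩
    have h := Int.floor_le ((Y - γ * X - |γ|) / (1 - β * γ))
    rw [le_div_iff₀ hd] at h
    have := hub ⌊(Y - γ * X - |γ|) / (1 - β * γ)⌋
    linarith
  have hbd : ∃ b : ℤ, ∀ n : ℤ, hgt n ≤ Y → n ≤ b := by
    refine ⟨⌈(Y - γ * X + |γ|) / (1 - β * γ)⌉, fun n hn => ?_⟩
    have h1 := hlb n
    have h2 : (n : ℝ) ≤ (Y - γ * X + |γ|) / (1 - β * γ) := by
      rw [le_div_iff₀ hd]; linarith
    have h3 := Int.le_ceil ((Y - γ * X + |γ|) / (1 - β * γ))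
    exact_mod_cast (h2.trans h3)
  obtain ⟨n₀, hn₀, hmax⟩ := Int.exists_greatest_of_bdd hbd hex
  have hnext : Y < hgt (n₀ + 1) := by
    by_contra hcon
    have := hmax (n₀ + 1) (not_lt.mp hcon)
    omega
  refine ⟨⌊X - β * n₀⌋, n₀, ?_, ?_, ?_, ?_⟩
  · have := Int.floor_le (X - β * n₀); linarith
  · have := Int.lt_floor_add_one (X - β * n₀); linarith
  · simp only [hhgt] at hn₀; linarith
  · have := hstep n₀
    simp only [hhgt] at hn₀ this hnext ⊢
    linarith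

end Crest.Agent.S0326Lib
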