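import Crest.Agent.S0326Lib.Frame

/-!
# S0326 library: orthonormal frames of the plane, boxes and their volumes
-/

set_option autoImplicit false

namespace Crest.Agent.S0326Lib

open MeasureTheory

/-- An orthonormal frame of the Euclidean plane (with the expansion property). -/
structure IsFrame (v₁ v₂ : E2) : Prop where
  norm₁ : ‖v₁‖ = 1
  norm₂ : ‖v₂‖ = 1
  orth : inner ℝ v₁ v₂ = 0
  dec : ∀ x : E2, x = inner ℝ x v₁ • v₁ + inner ℝ x v₂ • v₂

namespace IsFrame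

variable {v₁ v₂ : E2}

lemma inner_comb₁ (hf : IsFrame v₁ v₂) (α β : ℝ) : inner ℝ (α • v₁ + β • v₂) v₁ = α := by
  rw [inner_add_left, inner_smul_left, inner_smul_left, real_inner_self_eq_norm_sq, hf.norm₁,
    real_inner_comm, hf.orth]
  simp

lemma inner_comb₂ (hf : IsFrame v₁ v₂) (α β : ℝ) : inner ℝ (α • v₁ + β • v₂) v₂ = β := by
  rw [inner_add_left, inner_smul_left, inner_smul_left, real_inner_self_eq_norm_sq, hf.norm₂,
    hf.orth]
  simp

lemma norm_sq (hf : IsFrame v₁ v₂) (x : E2) :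
    ‖x‖ ^ 2 = inner ℝ x v₁ ^ 2 + inner ℝ x v₂ ^ 2 := by
  have h := hf.dec x
  have h2 : ‖x‖ ^ 2 = inner ℝ x x := (real_inner_self_eq_norm_sq x).symm
  rw [h2]
  conv_lhs => rw [h]
  rw [inner_add_right, inner_smul_right, inner_smul_right, hf.inner_comb₁, hf.inner_comb₂]
  ring

lemma abs_inner₁_le (hf : IsFrame v₁ v₂) (x : E2) : |inner ℝ x v₁| ≤ ‖x‖ := by
  have := abs_real_inner_le_norm x v₁
  rwa [hf.norm₁, mul_one] at this

lemma abs_inner₂_le (hf : IsFrame v₁ v₂) (x : E2) : |inner ℝ x v₂| ≤ ‖x‖ := by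
  have := abs_real_inner_le_norm x v₂
  rwa [hf.norm₂, mul_one] at this

lemma norm_le_add (hf : IsFrame v₁ v₂) (x : E2) : ‖x‖ ≤ |inner ℝ x v₁| + |inner ℝ x v₂| := by
  have h := hf.norm_sq x
  have h1 : 0 ≤ |inner ℝ x v₁| := abs_nonneg _
  have h2 : 0 ≤ |inner ℝ x v₂| := abs_nonneg _
  have h3 : ‖x‖ ^ 2 ≤ (|inner ℝ x v₁| + |inner ℝ x v₂|) ^ 2 := by
    rw [h]
    nlinarith [sq_abs (inner ℝ x v₁), sq_abs (inner ℝ x v₂)]
  exact abs_le_of_sq_le_sq' h3 (by positivity) |>.2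

lemma norm_comb_le (hf : IsFrame v₁ v₂) (α β : ℝ) : ‖α • v₁ + β • v₂‖ ≤ |α| + |β| := by
  have := hf.norm_le_add (α • v₁ + β • v₂)
  rwa [hf.inner_comb₁, hf.inner_comb₂] at this

/-- The coordinate map of a frame, as a linear map. -/
noncomputable def coordMap (v₁ v₂ : E2) : E2 →ₗ[ℝ] E2 where
  toFun x := !₂[inner ℝ x v₁, inner ℝ x v₂]
  map_add' x y := by ext i; fin_cases i <;> simp [inner_add_left]
  map_smul' c x := by ext i; fin_cases i <;> simp [inner_smul_left]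

lemma coordMap_apply (v₁ v₂ x : E2) : coordMap v₁ v₂ x = !₂[inner ℝ x v₁, inner ℝ x v₂] := rfl

/-- The coordinate map of a frame, as a linear isometry equivalence. -/
noncomputable def coordEquiv (hf : IsFrame v₁ v₂) : E2 ≃ₗᵢ[ℝ] E2 :=
  LinearIsometry.toLinearIsometryEquiv
    { toLinearMap := coordMap v₁ v₂
      norm_map' := fun x => by
        have h1 : ‖coordMap v₁ v₂ x‖ ^ 2 = ‖x‖ ^ 2 := by
          rw [norm_sq_eq_coords, hf.norm_sq x, coordMap_apply]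
          simp
        exact (sq_eq_sq₀ (norm_nonneg _) (norm_nonneg _)).mp h1 } rfl

lemma coordEquiv_apply (hf : IsFrame v₁ v₂) (x : E2) :
    hf.coordEquiv x = !₂[inner ℝ x v₁, inner ℝ x v₂] := rfl

end IsFrame

/-- Half-open box in standard coordinates. -/
def stdBox (lo hi : Fin 2 → ℝ) : Set E2 := {y | ∀ i, lo i ≤ y i ∧ y i < hi i}

lemma stdBox_eq_preimage (lo hi : Fin 2 → ℝ) :
    stdBox lo hi = (WithLp.ofLp : E2 → Fin 2 → ℝ) ⁻¹'
      (Set.pi Set.univ fun i => Set.Ico (lo i) (hi i)) := by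
  ext y; simp [stdBox, Set.mem_pi]

lemma measurableSet_stdBox (lo hi : Fin 2 → ℝ) : MeasurableSet (stdBox lo hi) := by
  rw [stdBox_eq_preimage]
  exact (PiLp.volume_preserving_ofLp (Fin 2)).measurable
    (MeasurableSet.univ_pi fun i => measurableSet_Ico)

lemma volume_stdBox (lo hi : Fin 2 → ℝ) :
    volume (stdBox lo hi) = ENNReal.ofReal (hi 0 - lo 0) * ENNReal.ofReal (hi 1 - lo 1) := by
  rw [stdBox_eq_preimage, (PiLp.volume_preserving_ofLp (Fin 2)).measure_preimage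
    (MeasurableSet.univ_pi fun i => measurableSet_Ico).nullMeasurableSet, Real.volume_pi_Ico,
    Fin.prod_univ_two]

/-- Half-open box in frame coordinates centred at `q`. -/
def frameBox (v₁ v₂ q : E2) (lo hi : Fin 2 → ℝ) : Set E2 :=
  {x | lo 0 ≤ inner ℝ (x - q) v₁ ∧ inner ℝ (x - q) v₁ < hi 0 ∧
    lo 1 ≤ inner ℝ (x - q) v₂ ∧ inner ℝ (x - q) v₂ < hi 1}

lemma frameBox_eq_preimage {v₁ v₂ : E2} (hf : IsFrame v₁ v₂) (q : E2) (lo hi : Fin 2 → ℝ) :
    frameBox v₁ v₂ q lo hi = (fun x => hf.coordEquiv (x - q)) ⁻¹' stdBox lo hi := by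
  ext x
  simp only [frameBox, stdBox, Set.mem_ofPred_eq, Set.mem_preimage, IsFrame.coordEquiv_apply,
    Fin.forall_fin_two]
  simp
  tauto

lemma measurableSet_frameBox {v₁ v₂ : E2} (hf : IsFrame v₁ v₂) (q : E2) (lo hi : Fin 2 → ℝ) :
    MeasurableSet (frameBox v₁ v₂ q lo hi) := by
  rw [frameBox_eq_preimage hf]
  have : Measurable (fun x : E2 => hf.coordEquiv (x - q)) :=
    hf.coordEquiv.continuous.measurable.comp (measurable_sub_const q)
  exact this (measurableSet_stdBox lo hi)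

lemma volume_frameBox {v₁ v₂ : E2} (hf : IsFrame v₁ v₂) (q : E2) (lo hi : Fin 2 → ℝ) :
    volume (frameBox v₁ v₂ q lo hi)
      = ENNReal.ofReal (hi 0 - lo 0) * ENNReal.ofReal (hi 1 - lo 1) := by
  rw [frameBox_eq_preimage hf, ← volume_stdBox]
  have hmp : MeasurePreserving (fun x : E2 => hf.coordEquiv (x - q)) volume volume :=
    (hf.coordEquiv.measurePreserving).comp (measurePreserving_sub_right volume q)
  exact hmp.measure_preimage (measurableSet_stdBox lo hi).nullMeasurableSet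

/-- The half-open lattice square of side `η` with index `(m, n)` in the frame at `q`. -/
def latSq (v₁ v₂ q : E2) (η : ℝ) (mn : ℤ × ℤ) : Set E2 :=
  frameBox v₁ v₂ q ![η * mn.1, η * mn.2] ![η * (mn.1 + 1), η * (mn.2 + 1)]

lemma mem_latSq {v₁ v₂ q : E2} {η : ℝ} {mn : ℤ × ℤ} {x : E2} :
    x ∈ latSq v₁ v₂ q η mn ↔ η * mn.1 ≤ inner ℝ (x - q) v₁ ∧ inner ℝ (x - q) v₁ < η * (mn.1 + 1) ∧
      η * mn.2 ≤ inner ℝ (x - q) v₂ ∧ inner ℝ (x - q) v₂ < η * (mn.2 + 1) := by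
  simp [latSq, frameBox]

lemma volume_latSq {v₁ v₂ : E2} (hf : IsFrame v₁ v₂) (q : E2) {η : ℝ} (hη : 0 < η)
    (mn : ℤ × ℤ) : volume (latSq v₁ v₂ q η mn) = ENNReal.ofReal (η ^ 2) := by
  rw [latSq, volume_frameBox hf, ← ENNReal.ofReal_mul (by simp; nlinarith)]
  congr 1
  simp
  ring

lemma latSq_disjoint {v₁ v₂ : E2} (q : E2) {η : ℝ} (hη : 0 < η) {mn mn' : ℤ × ℤ}
    (h : mn ≠ mn') : Disjoint (latSq v₁ v₂ q η mn) (latSq v₁ v₂ q η mn') := by
  rw [Set.disjoint_left]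
  intro x hx hx'
  rw [mem_latSq] at hx hx'
  apply h
  have key : ∀ (a : ℝ) (m m' : ℤ), η * m ≤ a → a < η * (m + 1) → η * m' ≤ a → a < η * (m' + 1) →
      m = m' := by
    intro a m m' h1 h2 h3 h4
    have e1 : ⌊a / η⌋ = m := by
      rw [Int.floor_eq_iff]
      constructor
      · rw [le_div_iff₀ hη]; linarith
      · rw [div_lt_iff₀ hη]; linarith
    have e2 : ⌊a / η⌋ = m' := by
      rw [Int.floor_eq_iff]
      constructor
      · rw [le_div_iff₀ hη]; linarith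
      · rw [div_lt_iff₀ hη]; linarith
    rw [← e1, ← e2]
  exact Prod.ext (key _ _ _ hx.1 hx.2.1 hx'.1 hx'.2.1) (key _ _ _ hx.2.2.1 hx.2.2.2 hx'.2.2.1 hx'.2.2.2)

/-- Counting bound: finitely many lattice squares inside a set `S`. -/
lemma card_latSq_le {v₁ v₂ : E2} (hf : IsFrame v₁ v₂) (q : E2) {η : ℝ} (hη : 0 < η)
    (I : Finset (ℤ × ℤ)) (S : Set E2) (hS : ∀ mn ∈ I, latSq v₁ v₂ q η mn ⊆ S) :
    (I.card : ENNReal) * ENNReal.ofReal (η ^ 2) ≤ volume S := by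
  have h1 : volume (⋃ mn ∈ I, latSq v₁ v₂ q η mn) = ∑ mn ∈ I, volume (latSq v₁ v₂ q η mn) := by
    apply measure_biUnion_finset
    · intro a _ b _ hab
      exact latSq_disjoint q hη hab
    · intro a _
      exact measurableSet_frameBox hf _ _ _
  have h2 : ∑ mn ∈ I, volume (latSq v₁ v₂ q η mn) = (I.card : ENNReal) * ENNReal.ofReal (η ^ 2) := by
    rw [Finset.sum_congr rfl (fun mn _ => volume_latSq hf q hη mn)]
    simp
  rw [← h2, ← h1]
  exact measure_mono (Set.iUnion₂_subset hS)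

end Crest.Agent.S0326Lib
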