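import Crest.Agent.S0326Lib.Lattice
import Crest.Agent.S0326Lib.Squares

/-!
# S0326 library: the local covering lemma (affine model in one frame)
-/

set_option autoImplicit false

namespace Crest.Agent.S0326Lib

/-- Local model: the sheared lattice squares cover every point `ζ + s A ζ`. -/
theorem local_cover {v₁ v₂ : E2} (hf : IsFrame v₁ v₂) (A : E2 →L[ℝ] E2) (β γ : ℝ)
    (hA₁ : A v₁ = γ • v₂) (hA₂ : A v₂ = β • v₁)
    (L : ℝ) (hL : 0 < L) (MA d₀ : ℝ) (hβ : |β| ≤ MA) (hγ : |γ| ≤ MA) (hβγ : 0 ≤ β * γ)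
    (hd₀ : 0 < d₀) (hdet : d₀ ≤ 1 - L ^ 2 * (β * γ))
    (η : ℝ) (hη : 0 < η) (ζ : E2) (s : ℝ) (hs : |s| ≤ L) :
    ∃ (m n : ℤ) (x y : ℝ), 0 ≤ x ∧ x ≤ 1 ∧ 0 ≤ y ∧ y ≤ 1 ∧
      ζ + s • A ζ = ((η * m) • v₁ + (η * n) • v₂) + s • A ((η * m) • v₁ + (η * n) • v₂)
          + ((η * x) • v₁ + (η * y) • v₂) ∧
      |inner ℝ (ζ - ((η * m) • v₁ + (η * n) • v₂)) v₁| ≤ (1 + L * MA) / d₀ * η ∧
      |inner ℝ (ζ - ((η * m) • v₁ + (η * n) • v₂)) v₂| ≤ (1 + L * MA) / d₀ * η := by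
  have hMA : 0 ≤ MA := (abs_nonneg β).trans hβ
  have hs2 : s ^ 2 ≤ L ^ 2 := by
    have := abs_nonneg s
    nlinarith [sq_abs s]
  have hprod : s ^ 2 * (β * γ) ≤ L ^ 2 * (β * γ) := mul_le_mul_of_nonneg_right hs2 hβγ
  have h0 : 0 ≤ (s * β) * (s * γ) := by nlinarith [sq_nonneg s]
  have h1 : (s * β) * (s * γ) < 1 := by nlinarith
  set ζ₁ := inner ℝ ζ v₁ with hζ₁
  set ζ₂ := inner ℝ ζ v₂ with hζ₂
  obtain ⟨m, n, hx0, hx1, hy0, hy1⟩ :=
    lattice_cover (s * β) (s * γ) ((ζ₁ + s * β * ζ₂) / η) ((ζ₂ + s * γ * ζ₁) / η) h0 h1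
  set x := (ζ₁ + s * β * ζ₂) / η - (m + s * β * n) with hx
  set y := (ζ₂ + s * γ * ζ₁) / η - (n + s * γ * m) with hy
  have hxe : η * x = ζ₁ + s * β * ζ₂ - η * (m + s * β * n) := by
    rw [hx]; field_simp
  have hye : η * y = ζ₂ + s * γ * ζ₁ - η * (n + s * γ * m) := by
    rw [hy]; field_simp
  have hζ : ζ = ζ₁ • v₁ + ζ₂ • v₂ := hf.dec ζ
  refine ⟨m, n, x, y, hx0, hx1, hy0, hy1, ?_, ?_, ?_⟩
  · have e1 : ζ + s • A ζ = (ζ₁ + s * β * ζ₂) • v₁ + (ζ₂ + s * γ * ζ₁) • v₂ := by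
      conv_lhs => rw [hζ]
      simp only [map_add, map_smul, hA₁, hA₂]
      module
    have e2 : ((η * m) • v₁ + (η * n) • v₂) + s • A ((η * m) • v₁ + (η * n) • v₂)
          + ((η * x) • v₁ + (η * y) • v₂)
        = (η * (m + s * β * n) + η * x) • v₁ + (η * (n + s * γ * m) + η * y) • v₂ := by
      simp only [map_add, map_smul, hA₁, hA₂]
      module
    rw [e1, e2, hxe, hye]
    congr 2 <;> ring
  · have e : inner ℝ (ζ - ((η * m) • v₁ + (η * n) • v₂)) v₁ = ζ₁ - η * m := by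
      rw [inner_sub_left, hf.inner_comb₁]
    rw [e]
    -- ω₁ (1 - s²βγ) = η x - s β η y
    have hω : (ζ₁ - η * m) * (1 - s ^ 2 * (β * γ)) = η * x - s * β * (η * y) := by
      rw [hxe, hye]; ring
    have hden : d₀ ≤ 1 - s ^ 2 * (β * γ) := by linarith
    have hnum : |η * x - s * β * (η * y)| ≤ η * (1 + L * MA) := by
      have hsβ : |s * β| ≤ L * MA := by
        rw [abs_mul]; exact mul_le_mul hs hβ (abs_nonneg _) hL.le
      have h1 : |η * x| ≤ η := by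
        rw [abs_of_nonneg (by positivity)]; nlinarith
      have h2 : |s * β * (η * y)| ≤ L * MA * η := by
        rw [abs_mul]
        have : |η * y| ≤ η := by rw [abs_of_nonneg (by positivity)]; nlinarith
        exact mul_le_mul hsβ this (abs_nonneg _) (by positivity)
      calc |η * x - s * β * (η * y)| ≤ |η * x| + |s * β * (η * y)| := abs_sub _ _
        _ ≤ η + L * MA * η := add_le_add h1 h2
        _ = η * (1 + L * MA) := by ring
    have hmul : |ζ₁ - η * m| * d₀ ≤ η * (1 + L * MA) := by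
      calc |ζ₁ - η * m| * d₀ ≤ |ζ₁ - η * m| * (1 - s ^ 2 * (β * γ)) :=
            mul_le_mul_of_nonneg_left hden (abs_nonneg _)
        _ = |(ζ₁ - η * m) * (1 - s ^ 2 * (β * γ))| := by
            rw [abs_mul, abs_of_nonneg (a := 1 - s ^ 2 * (β * γ)) (by linarith)]
        _ ≤ η * (1 + L * MA) := by rw [hω]; exact hnum
    rw [div_mul_eq_mul_div, le_div_iff₀ hd₀]
    linarith
  · have e : inner ℝ (ζ - ((η * m) • v₁ + (η * n) • v₂)) v₂ = ζ₂ - η * n := by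
      rw [inner_sub_left, hf.inner_comb₂]
    rw [e]
    have hω : (ζ₂ - η * n) * (1 - s ^ 2 * (β * γ)) = η * y - s * γ * (η * x) := by
      rw [hxe, hye]; ring
    have hden : d₀ ≤ 1 - s ^ 2 * (β * γ) := by linarith
    have hnum : |η * y - s * γ * (η * x)| ≤ η * (1 + L * MA) := by
      have hsγ : |s * γ| ≤ L * MA := by
        rw [abs_mul]; exact mul_le_mul hs hγ (abs_nonneg _) hL.le
      have h1 : |η * y| ≤ η := by
        rw [abs_of_nonneg (by positivity)]; nlinarith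
      have h2 : |s * γ * (η * x)| ≤ L * MA * η := by
        rw [abs_mul]
        have : |η * x| ≤ η := by rw [abs_of_nonneg (by positivity)]; nlinarith
        exact mul_le_mul hsγ this (abs_nonneg _) (by positivity)
      calc |η * y - s * γ * (η * x)| ≤ |η * y| + |s * γ * (η * x)| := abs_sub _ _
        _ ≤ η + L * MA * η := add_le_add h1 h2
        _ = η * (1 + L * MA) := by ring
    have hmul : |ζ₂ - η * n| * d₀ ≤ η * (1 + L * MA) := by
      calc |ζ₂ - η * n| * d₀ ≤ |ζ₂ - η * n| * (1 - s ^ 2 * (β * γ)) :=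
            mul_le_mul_of_nonneg_left hden (abs_nonneg _)
        _ = |(ζ₂ - η * n) * (1 - s ^ 2 * (β * γ))| := by
            rw [abs_mul, abs_of_nonneg (a := 1 - s ^ 2 * (β * γ)) (by linarith)]
        _ ≤ η * (1 + L * MA) := by rw [hω]; exact hnum
    rw [div_mul_eq_mul_div, le_div_iff₀ hd₀]
    linarith

/-- Cell-level covering: the true point `p + s V(p)` is covered by an enlarged lattice square
moving with the velocity of the affine model at `q`. -/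
theorem cell_cover {v₁ v₂ : E2} (hf : IsFrame v₁ v₂) (A : E2 →L[ℝ] E2) (β γ : ℝ)
    (hA₁ : A v₁ = γ • v₂) (hA₂ : A v₂ = β • v₁)
    (L : ℝ) (hL : 0 < L) (MA d₀ : ℝ) (hβ : |β| ≤ MA) (hγ : |γ| ≤ MA) (hβγ : 0 ≤ β * γ)
    (hd₀ : 0 < d₀) (hdet : d₀ ≤ 1 - L ^ 2 * (β * γ))
    (η κ : ℝ) (hη : 0 < η) (hκ : 0 < κ)
    (p q Vp Vq : E2) (s : ℝ) (hs : |s| ≤ L)
    (herr : L * ‖Vp - Vq - A (p - q)‖ ≤ κ * η) :
    ∃ (m n : ℤ) (x y : ℝ), 0 ≤ x ∧ x ≤ 1 ∧ 0 ≤ y ∧ y ≤ 1 ∧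
      p + s • Vp = (q + (η * m - κ * η) • v₁ + (η * n - κ * η) • v₂)
          + x • (((1 + 2 * κ) * η) • v₁) + y • (((1 + 2 * κ) * η) • v₂)
          + s • (Vq + A ((η * m) • v₁ + (η * n) • v₂)) ∧
      |inner ℝ (p - q - ((η * m) • v₁ + (η * n) • v₂)) v₁| ≤ (1 + L * MA) / d₀ * η ∧
      |inner ℝ (p - q - ((η * m) • v₁ + (η * n) • v₂)) v₂| ≤ (1 + L * MA) / d₀ * η := by
  obtain ⟨m, n, x', y', hx0, hx1, hy0, hy1, hid, hb1, hb2⟩ :=
    local_cover hf A β γ hA₁ hA₂ L hL MA d₀ hβ hγ hβγ hd₀ hdet η hη (p - q) s hs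
  set d : E2 := s • (Vp - Vq - A (p - q)) with hd
  have hdn : ‖d‖ ≤ κ * η := by
    rw [hd, norm_smul, Real.norm_eq_abs]
    calc |s| * ‖Vp - Vq - A (p - q)‖ ≤ L * ‖Vp - Vq - A (p - q)‖ :=
          mul_le_mul_of_nonneg_right hs (norm_nonneg _)
      _ ≤ κ * η := herr
  set d₁ := inner ℝ d v₁ with hd₁
  set d₂ := inner ℝ d v₂ with hd₂
  have hd1 : |d₁| ≤ κ * η := (hf.abs_inner₁_le d).trans hdn
  have hd2 : |d₂| ≤ κ * η := (hf.abs_inner₂_le d).trans hdn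
  have hdd : d = d₁ • v₁ + d₂ • v₂ := hf.dec d
  have hpos : 0 < (1 + 2 * κ) * η := by positivity
  refine ⟨m, n, (η * x' + κ * η + d₁) / ((1 + 2 * κ) * η), (η * y' + κ * η + d₂) / ((1 + 2 * κ) * η),
    ?_, ?_, ?_, ?_, ?_, hb1, hb2⟩
  · apply div_nonneg _ hpos.le
    have := (abs_le.mp hd1).1
    nlinarith
  · rw [div_le_one hpos]
    have := (abs_le.mp hd1).2
    nlinarith
  · apply div_nonneg _ hpos.le
    have := (abs_le.mp hd2).1
    nlinarith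
  · rw [div_le_one hpos]
    have := (abs_le.mp hd2).2
    nlinarith
  · have e1 : p + s • Vp = q + s • Vq + ((p - q) + s • A (p - q)) + d := by
      rw [hd]; module
    rw [e1, hid, hdd]
    have e2 : ∀ (z : ℝ), (z / ((1 + 2 * κ) * η)) • (((1 + 2 * κ) * η) • v₁) = z • v₁ := by
      intro z; rw [smul_smul, div_mul_cancel₀ _ hpos.ne']
    have e3 : ∀ (z : ℝ), (z / ((1 + 2 * κ) * η)) • (((1 + 2 * κ) * η) • v₂) = z • v₂ := by
      intro z; rw [smul_smul, div_mul_cancel₀ _ hpos.ne']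
    rw [e2, e3]
    module

end Crest.Agent.S0326Lib
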