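import Crest.Agent.S0326Lib.Local
import Crest.Agent.S0326Lib.Analysis
import Crest.Agent.S0326Lib.Cells

/-!
# S0326 library: the global construction
-/

set_option autoImplicit false

namespace Crest.Agent.S0326Lib

open MeasureTheory

open Classical in
/-- The index set of the lattice squares used for the cell `k` with base point `q`. -/
noncomputable def idxSet (v₁ v₂ q : E2) (ℓ η ρ : ℝ) (k : ℤ × ℤ) : Finset (ℤ × ℤ) :=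
  (Finset.Icc (-(⌈2 * (ℓ + ρ) / η⌉ : ℤ)) ⌈2 * (ℓ + ρ) / η⌉ ×ˢ
    Finset.Icc (-(⌈2 * (ℓ + ρ) / η⌉ : ℤ)) ⌈2 * (ℓ + ρ) / η⌉).filter
    (fun mn => latSq v₁ v₂ q η mn ⊆ cellPlus ℓ ρ k)

lemma corner_mem_latSq {v₁ v₂ : E2} (hf : IsFrame v₁ v₂) (q : E2) {η : ℝ} (hη : 0 < η)
    (mn : ℤ × ℤ) : q + ((η * mn.1) • v₁ + (η * mn.2) • v₂) ∈ latSq v₁ v₂ q η mn := by
  rw [mem_latSq, add_sub_cancel_left, hf.inner_comb₁, hf.inner_comb₂]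
  refine ⟨le_rfl, by nlinarith, le_rfl, by nlinarith⟩

lemma norm_corner_le {v₁ v₂ : E2} (hf : IsFrame v₁ v₂) {q : E2} {ℓ η ρ : ℝ} (hη : 0 < η)
    {k : ℤ × ℤ} (hq : q ∈ cell ℓ k) {mn : ℤ × ℤ}
    (hsub : latSq v₁ v₂ q η mn ⊆ cellPlus ℓ ρ k) :
    ‖(η * mn.1) • v₁ + (η * mn.2) • v₂‖ ≤ 2 * (ℓ + ρ) := by
  have h1 := hsub (corner_mem_latSq hf q hη mn)
  have h2 := norm_sub_le_of_mem_cellPlus h1 hq
  rwa [add_sub_cancel_left] at h2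

open Classical in
lemma mem_idxSet_raw {v₁ v₂ q : E2} {ℓ η ρ : ℝ} {k : ℤ × ℤ} {mn : ℤ × ℤ} :
    mn ∈ idxSet v₁ v₂ q ℓ η ρ k ↔
      mn ∈ (Finset.Icc (-(⌈2 * (ℓ + ρ) / η⌉ : ℤ)) ⌈2 * (ℓ + ρ) / η⌉ ×ˢ
        Finset.Icc (-(⌈2 * (ℓ + ρ) / η⌉ : ℤ)) ⌈2 * (ℓ + ρ) / η⌉) ∧
      latSq v₁ v₂ q η mn ⊆ cellPlus ℓ ρ k := by
  unfold idxSet
  rw [Finset.mem_filter]

lemma mem_idxSet {v₁ v₂ : E2} (hf : IsFrame v₁ v₂) {q : E2} {ℓ η ρ : ℝ} (hη : 0 < η)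
    {k : ℤ × ℤ} (hq : q ∈ cell ℓ k) {mn : ℤ × ℤ} :
    mn ∈ idxSet v₁ v₂ q ℓ η ρ k ↔ latSq v₁ v₂ q η mn ⊆ cellPlus ℓ ρ k := by
  rw [mem_idxSet_raw]
  constructor
  · exact fun h => h.2
  · intro hsub
    refine ⟨?_, hsub⟩
    have hn := norm_corner_le hf hη hq hsub
    have h1 : |η * (mn.1 : ℝ)| ≤ 2 * (ℓ + ρ) := by
      have := hf.abs_inner₁_le ((η * mn.1) • v₁ + (η * mn.2) • v₂)
      rw [hf.inner_comb₁] at this
      exact this.trans hn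
    have h2 : |η * (mn.2 : ℝ)| ≤ 2 * (ℓ + ρ) := by
      have := hf.abs_inner₂_le ((η * mn.1) • v₁ + (η * mn.2) • v₂)
      rw [hf.inner_comb₂] at this
      exact this.trans hn
    have key : ∀ m : ℤ, |η * (m : ℝ)| ≤ 2 * (ℓ + ρ) →
        -(⌈2 * (ℓ + ρ) / η⌉ : ℤ) ≤ m ∧ m ≤ ⌈2 * (ℓ + ρ) / η⌉ := by
      intro m hm
      rw [abs_le] at hm
      have hc := Int.le_ceil (2 * (ℓ + ρ) / η)
      have e1 : (m : ℝ) ≤ 2 * (ℓ + ρ) / η := by rw [le_div_iff₀ hη]; nlinarith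
      have e2 : -(2 * (ℓ + ρ) / η) ≤ (m : ℝ) := by
        rw [← neg_div, div_le_iff₀ hη]; nlinarith
      constructor
      · have : (-(⌈2 * (ℓ + ρ) / η⌉ : ℤ) : ℝ) ≤ (m : ℝ) := by push_cast; linarith
        exact_mod_cast this
      · have : (m : ℝ) ≤ ((⌈2 * (ℓ + ρ) / η⌉ : ℤ) : ℝ) := by linarith
        exact_mod_cast this
    rw [Finset.mem_product, Finset.mem_Icc, Finset.mem_Icc]
    exact ⟨key _ h1, key _ h2⟩

lemma card_idxSet_le {v₁ v₂ : E2} (hf : IsFrame v₁ v₂) (q : E2) {ℓ η ρ : ℝ} (hη : 0 < η)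
    (hℓρ : 0 ≤ ℓ + 2 * ρ) (k : ℤ × ℤ) :
    ((idxSet v₁ v₂ q ℓ η ρ k).card : ℝ) * η ^ 2 ≤ (ℓ + 2 * ρ) ^ 2 := by
  have h := card_latSq_le hf q hη (idxSet v₁ v₂ q ℓ η ρ k) (cellPlus ℓ ρ k)
    (fun mn hmn => (mem_idxSet_raw.mp hmn).2)
  rw [volume_cellPlus hℓρ] at h
  have e : ((idxSet v₁ v₂ q ℓ η ρ k).card : ENNReal) * ENNReal.ofReal (η ^ 2)
      = ENNReal.ofReal (((idxSet v₁ v₂ q ℓ η ρ k).card : ℝ) * η ^ 2) := by
    rw [ENNReal.ofReal_mul (Nat.cast_nonneg _), ENNReal.ofReal_natCast]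
  rw [e, ENNReal.ofReal_le_ofReal_iff (by positivity)] at h
  exact h

/-- Covering inside one cell. -/
theorem cover_in_cell {v₁ v₂ : E2} (hf : IsFrame v₁ v₂) (A : E2 →L[ℝ] E2) (β γ : ℝ)
    (hA₁ : A v₁ = γ • v₂) (hA₂ : A v₂ = β • v₁)
    (L : ℝ) (hL : 0 < L) (MA d₀ : ℝ) (hβ : |β| ≤ MA) (hγ : |γ| ≤ MA) (hβγ : 0 ≤ β * γ)
    (hd₀ : 0 < d₀) (hdet : d₀ ≤ 1 - L ^ 2 * (β * γ))
    (ℓ η κ : ℝ) (hη : 0 < η) (hκ : 0 < κ) (k : ℤ × ℤ)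
    (p q Vp Vq : E2) (hp : p ∈ cell ℓ k) (hq : q ∈ cell ℓ k) (s : ℝ) (hs : |s| ≤ L)
    (herr : L * ‖Vp - Vq - A (p - q)‖ ≤ κ * η) :
    ∃ mn ∈ idxSet v₁ v₂ q ℓ η (2 * (1 + (1 + L * MA) / d₀) * η) k,
      ∃ x ∈ Set.Icc (0 : ℝ) 1, ∃ y ∈ Set.Icc (0 : ℝ) 1,
      p + s • Vp = (q + (η * mn.1 - κ * η) • v₁ + (η * mn.2 - κ * η) • v₂)
          + x • (((1 + 2 * κ) * η) • v₁) + y • (((1 + 2 * κ) * η) • v₂)
          + s • (Vq + A ((η * mn.1) • v₁ + (η * mn.2) • v₂)) := by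
  obtain ⟨m, n, x, y, hx0, hx1, hy0, hy1, hid, hb1, hb2⟩ :=
    cell_cover hf A β γ hA₁ hA₂ L hL MA d₀ hβ hγ hβγ hd₀ hdet η κ hη hκ p q Vp Vq s hs herr
  refine ⟨(m, n), ?_, x, ⟨hx0, hx1⟩, y, ⟨hy0, hy1⟩, hid⟩
  rw [mem_idxSet hf hη hq]
  intro z hz
  apply mem_cellPlus_of_norm_le hp
  rw [mem_latSq] at hz
  set C₁ := (1 + L * MA) / d₀ with hC₁
  have e1 : inner ℝ (z - p) v₁ = (inner ℝ (z - q) v₁ - η * m)
      - inner ℝ (p - q - ((η * m) • v₁ + (η * n) • v₂)) v₁ := by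
    have : z - p = (z - q) - (p - q - ((η * m) • v₁ + (η * n) • v₂))
        - ((η * m) • v₁ + (η * n) • v₂) := by abel
    rw [this, inner_sub_left, inner_sub_left (z - q), hf.inner_comb₁]
    ring
  have e2 : inner ℝ (z - p) v₂ = (inner ℝ (z - q) v₂ - η * n)
      - inner ℝ (p - q - ((η * m) • v₁ + (η * n) • v₂)) v₂ := by
    have : z - p = (z - q) - (p - q - ((η * m) • v₁ + (η * n) • v₂))
        - ((η * m) • v₁ + (η * n) • v₂) := by abel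
    rw [this, inner_sub_left, inner_sub_left (z - q), hf.inner_comb₂]
    ring
  have b1 : |inner ℝ (z - p) v₁| ≤ (1 + C₁) * η := by
    rw [e1, abs_le]
    have := abs_le.mp hb1
    constructor <;> nlinarith [hz.1, hz.2.1]
  have b2 : |inner ℝ (z - p) v₂| ≤ (1 + C₁) * η := by
    rw [e2, abs_le]
    have := abs_le.mp hb2
    constructor <;> nlinarith [hz.2.2.1, hz.2.2.2]
  have := hf.norm_le_add (z - p)
  linarith

lemma finite_cells {D : Set E2} (hD : IsCompact D) {ℓ : ℝ} (hℓ : 0 < ℓ) :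
    {k : ℤ × ℤ | ∃ x ∈ D, cellOf ℓ x = k}.Finite := by
  obtain ⟨R, hR⟩ := hD.isBounded.subset_closedBall (0 : E2)
  apply Set.Finite.subset (Set.finite_Icc ((-⌈R / ℓ⌉, -⌈R / ℓ⌉) : ℤ × ℤ) (⌈R / ℓ⌉, ⌈R / ℓ⌉))
  rintro k ⟨x, hx, rfl⟩
  have hxR : ‖x‖ ≤ R := by simpa using hR hx
  have key : ∀ i : Fin 2, -⌈R / ℓ⌉ ≤ ⌊x i / ℓ⌋ ∧ ⌊x i / ℓ⌋ ≤ ⌈R / ℓ⌉ := by
    intro i
    have hi := abs_le.mp ((abs_coord_le' x i).trans hxR)
    constructor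
    · rw [Int.le_floor]
      push_cast
      have : -(R / ℓ) ≤ x i / ℓ := by
        rw [← neg_div]; exact div_le_div_of_nonneg_right hi.1 hℓ.le
      linarith [Int.le_ceil (R / ℓ)]
    · have h1 : (⌊x i / ℓ⌋ : ℝ) ≤ x i / ℓ := Int.floor_le _
      have h2 : x i / ℓ ≤ R / ℓ := div_le_div_of_nonneg_right hi.2 hℓ.le
      have h3 : ((⌊x i / ℓ⌋ : ℤ) : ℝ) ≤ ((⌈R / ℓ⌉ : ℤ) : ℝ) := by linarith [Int.le_ceil (R / ℓ)]
      exact_mod_cast h3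
  simp only [cellOf, Set.mem_Icc, Prod.mk_le_mk]
  exact ⟨⟨(key 0).1, (key 1).1⟩, (key 0).2, (key 1).2⟩

/-- The construction for given parameters. -/
theorem exists_cover_of_params {D : Set E2} (hD : IsCompact D) (V : E2 → E2)
    (A : E2 → E2 →L[ℝ] E2) (v₁ v₂ : E2 → E2) (β γ : E2 → ℝ)
    (hfr : ∀ q ∈ D, IsFrame (v₁ q) (v₂ q))
    (hA₁ : ∀ q ∈ D, A q (v₁ q) = γ q • v₂ q) (hA₂ : ∀ q ∈ D, A q (v₂ q) = β q • v₁ q)
    (L h MA d₀ : ℝ) (hL : 0 < L) (hh : 0 < h) (hMA : 0 ≤ MA) (hd₀ : 0 < d₀)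
    (hAn : ∀ q ∈ D, ‖A q‖ ≤ MA)
    (hβγ : ∀ q ∈ D, 0 ≤ β q * γ q) (hdet : ∀ q ∈ D, d₀ ≤ 1 - L ^ 2 * (β q * γ q))
    (hVc : ContinuousOn (fun p => Jh h (V p)) D)
    (κ θ e₂ ℓ : ℝ) (hκ : 0 < κ) (hθ : 0 < θ) (he₂ : 0 < e₂) (hℓ : 0 < ℓ)
    (hP1 : ∀ p ∈ D, ∀ q ∈ D, ‖p - q‖ ≤ 2 * ℓ → L * ‖V p - V q - A q (p - q)‖ ≤ κ * (θ * ℓ))
    (hP2 : ∀ p ∈ D, ∀ q ∈ D, ‖p - q‖ ≤ 2 * ℓ → Jh h (V q) ≤ Jh h (V p) + e₂)
    (hP3 : (1 + h) * (MA * (2 * (ℓ + 2 * (1 + (1 + L * MA) / d₀) * (θ * ℓ)))) ≤ e₂) :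
    ∃ (s : Finset (Σ _ : ℤ × ℤ, ℤ × ℤ)) (c a b g : (Σ _ : ℤ × ℤ, ℤ × ℤ) → E2),
      (∀ i ∈ s, a i ≠ 0 ∧ ‖b i‖ = ‖a i‖ ∧ inner ℝ (a i) (b i) = 0) ∧
      (∀ p ∈ D, ∀ t : ℝ, |t| ≤ L → ∃ i ∈ s, ∃ x ∈ Set.Icc (0:ℝ) 1, ∃ y ∈ Set.Icc (0:ℝ) 1,
          p + t • V p = c i + x • a i + y • b i + t • g i) ∧
      ∑ i ∈ s, ‖a i‖ ^ 2 * Jh h (g i) ≤
        ((1 + 2 * κ) * (1 + 4 * (1 + (1 + L * MA) / d₀) * θ)) ^ 2 *
          ((∫ p in D, Jh h (V p)) + 2 * e₂ * volume.real D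
            + (1 + e₂) * (volume.real (Metric.cthickening (2 * ℓ) D) - volume.real D)) := by
  classical
  set η := θ * ℓ with hη
  have hηpos : 0 < η := by positivity
  set C₁ := (1 + L * MA) / d₀ with hC₁
  have hC₁pos : 0 < C₁ := by positivity
  set ρ := 2 * (1 + C₁) * η with hρ
  have hρpos : 0 < ρ := by positivity
  -- cells
  have hfin := finite_cells hD hℓ
  set 𝒦 : Finset (ℤ × ℤ) := hfin.toFinset with h𝒦def
  have h𝒦 : ∀ x ∈ D, cellOf ℓ x ∈ 𝒦 := fun x hx => by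
    rw [h𝒦def, Set.Finite.mem_toFinset]; exact ⟨x, hx, rfl⟩
  have h𝒦' : ∀ k ∈ 𝒦, ∃ x, x ∈ D ∧ cellOf ℓ x = k := fun k hk => by
    rw [h𝒦def, Set.Finite.mem_toFinset] at hk
    obtain ⟨x, hx, hxk⟩ := hk
    exact ⟨x, hx, hxk⟩
  choose! q hqD hqk using h𝒦'
  have hqcell : ∀ k ∈ 𝒦, q k ∈ cell ℓ k := fun k hk => (mem_cell_iff hℓ).mpr (hqk k hk)
  -- bounds on β γ
  have hβ : ∀ x ∈ D, |β x| ≤ MA := by
    intro x hx
    have h1 : ‖A x (v₂ x)‖ ≤ ‖A x‖ * ‖v₂ x‖ := (A x).le_opNorm _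
    rw [hA₂ x hx, norm_smul, (hfr x hx).norm₁, (hfr x hx).norm₂, mul_one, mul_one,
      Real.norm_eq_abs] at h1
    exact h1.trans (hAn x hx)
  have hγ : ∀ x ∈ D, |γ x| ≤ MA := by
    intro x hx
    have h1 : ‖A x (v₁ x)‖ ≤ ‖A x‖ * ‖v₁ x‖ := (A x).le_opNorm _
    rw [hA₁ x hx, norm_smul, (hfr x hx).norm₁, (hfr x hx).norm₂, mul_one, mul_one,
      Real.norm_eq_abs] at h1
    exact h1.trans (hAn x hx)
  -- the family
  refine ⟨𝒦.sigma (fun k => idxSet (v₁ (q k)) (v₂ (q k)) (q k) ℓ η ρ k),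
    fun i => q i.1 + (η * i.2.1 - κ * η) • v₁ (q i.1) + (η * i.2.2 - κ * η) • v₂ (q i.1),
    fun i => ((1 + 2 * κ) * η) • v₁ (q i.1),
    fun i => ((1 + 2 * κ) * η) • v₂ (q i.1),
    fun i => V (q i.1) + A (q i.1) ((η * i.2.1) • v₁ (q i.1) + (η * i.2.2) • v₂ (q i.1)),
    ?_, ?_, ?_⟩
  · -- squares
    intro i hi
    rw [Finset.mem_sigma] at hi
    have hf := hfr _ (hqD _ hi.1)
    have hpos : 0 < (1 + 2 * κ) * η := by positivity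
    refine ⟨?_, ?_, ?_⟩
    · have : v₁ (q i.1) ≠ 0 := by
        intro h0
        have := hf.norm₁
        rw [h0, norm_zero] at this
        exact zero_ne_one this
      exact smul_ne_zero hpos.ne' this
    · rw [norm_smul, norm_smul, hf.norm₁, hf.norm₂]
    · rw [inner_smul_left, inner_smul_right, hf.orth]; simp
  · -- cover
    intro p hp t ht
    have hk := h𝒦 p hp
    set k := cellOf ℓ p with hkdef
    have hf := hfr _ (hqD k hk)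
    have hpc : p ∈ cell ℓ k := mem_cell_cellOf hℓ p
    have hqc := hqcell k hk
    have hpq : ‖p - q k‖ ≤ 2 * ℓ := norm_sub_le_of_mem_cell hpc hqc
    obtain ⟨mn, hmn, x, hx, y, hy, hid⟩ := cover_in_cell hf (A (q k)) (β (q k)) (γ (q k))
      (hA₁ _ (hqD k hk)) (hA₂ _ (hqD k hk)) L hL MA d₀ (hβ _ (hqD k hk)) (hγ _ (hqD k hk))
      (hβγ _ (hqD k hk)) hd₀ (hdet _ (hqD k hk)) ℓ η κ hηpos hκ k p (q k) (V p) (V (q k))
      hpc hqc t ht (hP1 p hp (q k) (hqD k hk) hpq)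
    exact ⟨⟨k, mn⟩, Finset.mem_sigma.mpr ⟨hk, hmn⟩, x, hx, y, hy, hid⟩
  · -- cost
    rw [Finset.sum_sigma]
    have hcell : ∀ k ∈ 𝒦, ∑ mn ∈ idxSet (v₁ (q k)) (v₂ (q k)) (q k) ℓ η ρ k,
        ‖((1 + 2 * κ) * η) • v₁ (q k)‖ ^ 2 *
          Jh h (V (q k) + A (q k) ((η * mn.1) • v₁ (q k) + (η * mn.2) • v₂ (q k)))
        ≤ ((1 + 2 * κ) * (1 + 4 * (1 + C₁) * θ)) ^ 2 * (ℓ ^ 2 * (Jh h (V (q k)) + e₂)) := by
      intro k hk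
      have hf := hfr _ (hqD k hk)
      have hnorm : ‖((1 + 2 * κ) * η) • v₁ (q k)‖ ^ 2 = ((1 + 2 * κ) * η) ^ 2 := by
        rw [norm_smul, hf.norm₁, mul_one, Real.norm_eq_abs, sq_abs]
      have hJ : ∀ mn ∈ idxSet (v₁ (q k)) (v₂ (q k)) (q k) ℓ η ρ k,
          Jh h (V (q k) + A (q k) ((η * mn.1) • v₁ (q k) + (η * mn.2) • v₂ (q k)))
            ≤ Jh h (V (q k)) + e₂ := by
        intro mn hmn
        have hsub := (mem_idxSet hf hηpos (hqcell k hk)).mp hmn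
        have hc := norm_corner_le hf hηpos (hqcell k hk) hsub
        have h1 := Jh_le_add hh.le
          (V (q k) + A (q k) ((η * mn.1) • v₁ (q k) + (η * mn.2) • v₂ (q k))) (V (q k))
        rw [add_sub_cancel_left] at h1
        have h2 : ‖A (q k) ((η * mn.1) • v₁ (q k) + (η * mn.2) • v₂ (q k))‖
            ≤ MA * (2 * (ℓ + ρ)) :=
          ((A (q k)).le_opNorm _).trans (mul_le_mul (hAn _ (hqD k hk)) hc (norm_nonneg _) hMA)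
        have h3 : (1 + h) * ‖A (q k) ((η * mn.1) • v₁ (q k) + (η * mn.2) • v₂ (q k))‖ ≤ e₂ :=
          (mul_le_mul_of_nonneg_left h2 (by positivity)).trans hP3
        linarith
      calc _ ≤ ∑ mn ∈ idxSet (v₁ (q k)) (v₂ (q k)) (q k) ℓ η ρ k,
            ((1 + 2 * κ) * η) ^ 2 * (Jh h (V (q k)) + e₂) := by
            apply Finset.sum_le_sum
            intro mn hmn
            rw [hnorm]
            exact mul_le_mul_of_nonneg_left (hJ mn hmn) (by positivity)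
        _ = ((idxSet (v₁ (q k)) (v₂ (q k)) (q k) ℓ η ρ k).card * η ^ 2) *
              ((1 + 2 * κ) ^ 2 * (Jh h (V (q k)) + e₂)) := by
            rw [Finset.sum_const, nsmul_eq_mul]; ring
        _ ≤ (ℓ + 2 * ρ) ^ 2 * ((1 + 2 * κ) ^ 2 * (Jh h (V (q k)) + e₂)) := by
            apply mul_le_mul_of_nonneg_right (card_idxSet_le hf (q k) hηpos (by positivity) k)
            have := Jh_pos h (V (q k))
            positivity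
        _ = _ := by rw [hρ, hη]; ring
    calc _ ≤ ∑ k ∈ 𝒦, ((1 + 2 * κ) * (1 + 4 * (1 + C₁) * θ)) ^ 2 *
            (ℓ ^ 2 * (Jh h (V (q k)) + e₂)) := Finset.sum_le_sum hcell
      _ = ((1 + 2 * κ) * (1 + 4 * (1 + C₁) * θ)) ^ 2 *
            ∑ k ∈ 𝒦, ℓ ^ 2 * (Jh h (V (q k)) + e₂) := by rw [Finset.mul_sum]
      _ ≤ _ := by
          apply mul_le_mul_of_nonneg_left _ (by positivity)
          exact cells_sum_le hD hℓ 𝒦 h𝒦 (fun k hk => ⟨q k, hqD k hk, hqk k hk⟩)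
            (fun p => Jh h (V p)) hVc (fun k => Jh h (V (q k)) + e₂) (2 * e₂) (1 + e₂)
            (by positivity)
            (fun k hk => by have := Jh_le_one h (V (q k)); linarith)
            (fun k hk x hx hxk => by
              have hxc : x ∈ cell ℓ k := (mem_cell_iff hℓ).mpr hxk
              have := hP2 x hx (q k) (hqD k hk) (norm_sub_le_of_mem_cell hxc (hqcell k hk))
              linarith)

end Crest.Agent.S0326Lib
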